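import Vale.Agent.P189.Read

/-! The relative cost lower bound. -/

namespace Vale.Agent.P189

open FreeGroup Finset MeasureTheory Classical

variable {X : Type} [MeasurableSpace X] {μ : Measure X} [IsProbabilityMeasure μ]

noncomputable def iv {Γ : Type} [Group Γ] (μ : Measure X) (ρ : Γ →* Equiv.Perm X) (B : Set X)
    (g : Γ) : ℝ := μ.real {x | x ∈ B ∧ ρ g⁻¹ x ∉ B}

section seq
variable {V E H : Type} [Fintype V] [Fintype E] [Fintype H] [LinearOrder H]
  {G : Gr V E} {base : V} {N : ℕ} {w : ℕ → Bool} {v : ℕ → V} {e : ℕ → E} {loop : E}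
  {ρ : F2 →* Equiv.Perm X}

omit [IsProbabilityMeasure μ] in
lemma mp_sg (hρ : ∀ g, MeasurePreserving (ρ g) μ μ) : MP μ (sg ρ) :=
  ⟨fun _ => hρ _, fun s => by simpa [sg] using hρ (of s)⟩

lemma dichotomy (hC : Cyc G base N w v e loop) {n1 r1 n2 r2 : ℕ} (R1 : Run N w n1 r1)
    (R2 : Run N w n2 r2) (hρ : ∀ g, MeasurePreserving (ρ g) μ μ)
    (gap : ∀ B, MeasurableSet B → μ.real B * (1 - μ.real B)
      ≤ 20 * (iv μ ρ B (pre w (n1 + r1)) + iv μ ρ B (pre w (n2 + r2))))
    {P : X → V → V → Prop} (h : St P) (hE : En μ G (sg ρ) P ≤ 1 + 1 / 5000)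
    (hT : μ.real (Tch (sg ρ) w v P) ≤ 3 / 4) : μ.real (Tch (sg ρ) w v P) ≤ 1 / 4 := by
  have hσ := mp_sg hρ
  have k := Kd_bound hC.rose hσ h
  have i1 := inv_run hC R1 hσ h
  have i2 := inv_run hC R2 hσ h
  have g := gap _ (tch_meas (w := w) (v := v) hσ h)
  simp only [Lc_sg] at i1 i2
  unfold iv at g
  by_contra hn
  nlinarith

lemma exists_closed [Nonempty V] [Nonempty E] (hC : Cyc G base N w v e loop) {n1 r1 n2 r2 : ℕ}
    (R1 : Run N w n1 r1) (R2 : Run N w n2 r2) (hρ : ∀ g, MeasurePreserving (ρ g) μ μ)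
    (gap : ∀ B, MeasurableSet B → μ.real B * (1 - μ.real B)
      ≤ 20 * (iv μ ρ B (pre w (n1 + r1)) + iv μ ρ B (pre w (n2 + r2))))
    {D0 : Set X} (hD0 : MeasurableSet D0) (hD1 : μ.real D0 = 1 / 2)
    {G' : Gr (V ⊕ H) (E ⊕ H)} {dir : H → Bool} (hG : Hairy G G' dir)
    {Q : X → V ⊕ H → V ⊕ H → Prop} (hQ : St Q) (hE : En μ G' (sg ρ) Q ≤ 1 + 1 / 5000)
    (hT : Tch (sg ρ) w v (fun x => res (Q x)) = ∅) :
    ∃ P : X → V ⊕ H → V ⊕ H → Prop, (∀ x, Equivalence (P x)) ∧ Closed G' (sg ρ) P ∧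
      (∀ x u u', Q x u u' → P x u u') ∧
      μ (Tch (sg ρ) w v fun x => res (P x)) ≤ ENNReal.ofReal (1 / 4) := by
  have hσ := mp_sg hρ
  obtain ⟨f, hf⟩ := exists_surjective_nat ((E ⊕ H) × (E ⊕ H) × Bool × Bool)
  let Dh : Bool → Set X := fun b => if b then D0 else D0ᶜ
  have Dm : ∀ b, MeasurableSet (Dh b) := fun b => by
    cases b
    · exact hD0.compl
    · exact hD0
  have Dr : ∀ b, μ.real (Dh b) = 1 / 2 := fun b => by
    cases b
    · simp only [Dh, Bool.false_eq_true, if_false]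
      rw [probReal_compl_eq_one_sub hD0, hD1]; norm_num
    · exact hD1
  let stp : ℕ → (X → V ⊕ H → V ⊕ H → Prop) → (X → V ⊕ H → V ⊕ H → Prop) := fun n P =>
    fold G' (sg ρ) (f n.unpair.1).1 (f n.unpair.1).2.1 (f n.unpair.1).2.2.1
      (Dh (f n.unpair.1).2.2.2) P
  let Pn : ℕ → (X → V ⊕ H → V ⊕ H → Prop) := fun n => Nat.rec Q stp n
  have hs : ∀ n, Pn (n + 1) = stp n (Pn n) := fun n => rfl
  have inv : ∀ n, St (Pn n) ∧ En μ G' (sg ρ) (Pn n) ≤ 1 + 1 / 5000 ∧
      μ.real (Tch (sg ρ) w v fun x => res (Pn n x)) ≤ 1 / 4 := by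
    intro n
    induction n with
    | zero => exact ⟨hQ, hE, by simp only [Pn, Nat.rec_zero, hT]; simp⟩
    | succ n ih =>
      obtain ⟨a1, a2, a3⟩ := ih
      have b1 : St (Pn (n + 1)) := fold_st hσ (Dm _) a1
      have b2 : En μ G' (sg ρ) (Pn (n + 1)) ≤ 1 + 1 / 5000 :=
        (fold_energy hσ (Dm _) a1).trans a2
      refine ⟨b1, b2, dichotomy hC R1 R2 hρ gap b1.res ((hair_energy hG hσ b1).trans b2) ?_⟩
      set q := f n.unpair.1
      set Z := Lc (sg ρ) w 1 ⁻¹' (((mv (sg ρ) (G'.lab q.1) q.2.2.1)⁻¹ : Equiv.Perm X) ⁻¹'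
        Dh q.2.2.2)
      have hZ : μ.real Z = 1 / 2 := by
        have m2 := hσ.mvi (G'.lab q.1) q.2.2.1
        rw [Measure.real, (hσ.Lc w 1).1.measure_preimage
          (m2.measurable (Dm _)).nullMeasurableSet, m2.measure_preimage (Dm _).nullMeasurableSet]
        exact Dr _
      have sub : (Tch (sg ρ) w v fun x => res (Pn (n + 1) x))
          ⊆ (Tch (sg ρ) w v fun x => res (Pn n x)) ∪ Z := by
        intro x hx
        by_contra hn
        simp only [Set.mem_union, not_or] at hn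
        refine hx fun u hu => not_not.1 hn.1 u ?_
        rcases hu with hu | ⟨hu, _⟩
        · exact hu
        · exact absurd hu.1 hn.2
      have := measureReal_mono (μ := μ) sub
      have := measureReal_union_le (μ := μ) (Tch (sg ρ) w v fun x => res (Pn n x)) Z
      linarith
  have mono : ∀ x u u', ∀ {m n}, m ≤ n → Pn m x u u' → Pn n x u u' := by
    intro x u u' m n hmn h
    induction hmn with
    | refl => exact h
    | step _ ih => exact Or.inl ih
  refine ⟨fun x u u' => ∃ n, Pn n x u u', fun x => ⟨fun u => ⟨0, (hQ.eqv x).refl u⟩, ?_, ?_⟩,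
    ?_, fun x u u' h => ⟨0, h⟩, ?_⟩
  · rintro u u' ⟨n, h⟩
    exact ⟨n, ((inv n).1.eqv x).symm h⟩
  · rintro u u' u'' ⟨n, h⟩ ⟨m, h'⟩
    exact ⟨max n m, ((inv _).1.eqv x).trans (mono _ _ _ (le_max_left _ _) h)
      (mono _ _ _ (le_max_right _ _) h')⟩
  · rintro x a a' b hl ⟨n, h⟩
    obtain ⟨k, hk⟩ := hf (a, a', b, decide (x ∈ D0))
    refine ⟨Nat.pair k n + 1, Or.inr ?_⟩
    simp only [Nat.unpair_pair, hk]
    refine ⟨⟨?_, hl, ?_⟩, Or.inr (Or.inl ⟨((inv _).1.eqv _).refl _, ((inv _).1.eqv _).refl _⟩)⟩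
    · by_cases hx : x ∈ D0 <;> simp [Dh, hx]
    · simpa using mono _ _ _ (Nat.right_le_pair k n) h
  · have : (Tch (sg ρ) w v fun x => res fun u u' => ∃ n, Pn n x u u')
        = ⋃ n, Tch (sg ρ) w v fun x => res (Pn n x) := by
      ext x
      simp only [Tch, Sing, res, Set.mem_setOf_eq, Set.mem_iUnion, not_forall]
      constructor
      · rintro ⟨u, ⟨n, h⟩, h'⟩; exact ⟨n, u, h, h'⟩
      · rintro ⟨n, u, h, h'⟩; exact ⟨u, ⟨n, h⟩, h'⟩
    rw [this, Monotone.measure_iUnion]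
    · refine iSup_le fun n => ?_
      rw [← ofReal_measureReal]
      exact ENNReal.ofReal_le_ofReal (inv n).2.2
    · intro m n hmn x hx hs
      exact hx fun u hu => hs u (mono _ _ _ hmn hu)

end seq

section concrete
variable (N : ℕ) [NeZero N] (w : ℕ → Bool)

def G0 : Gr (ZMod N) (Option (ZMod N)) where
  lab e := e.elim false fun k => w k.val
  src e := e.elim 0 id
  tgt e := e.elim 0 (· + 1)

lemma G0_cyc (w0 : w 0 = true) (wN : w (N - 1) = true) :
    Cyc (G0 N w) 0 N w (fun i => (i : ZMod N)) (fun i => some (i : ZMod N)) none where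
  v0 := Nat.cast_zero
  vN := ZMod.natCast_self N
  inj i hi j hj h := by
    have := congrArg ZMod.val h
    rwa [ZMod.val_cast_of_lt hi, ZMod.val_cast_of_lt hj] at this
  edges f := by
    cases f with
    | none => exact Or.inl rfl
    | some k => exact Or.inr ⟨k.val, ZMod.val_lt k, by simp⟩
  verts u := ⟨u.val, ZMod.val_lt u, by simp⟩
  src i _ := rfl
  tgt i _ := by simp [G0]
  lab i hi := by simp [G0, ZMod.val_cast_of_lt hi]
  llab := rfl
  lsrc := rfl
  ltgt := rfl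
  w0 := w0
  wN := wN
  pos := Nat.pos_of_ne_zero (NeZero.ne N)

variable {C : ℕ} (L : ℕ) (l : Fin C → ℕ → Bool × Bool)

abbrev HT (C L : ℕ) := Lex (Fin C × Fin L)

def hv (c : Fin C) : ℕ → ZMod N ⊕ HT C L
  | 0 => .inl 0
  | k + 1 => if h : k < L then .inr (toLex (c, ⟨k, h⟩)) else .inl 0

def G1 : Gr (ZMod N ⊕ HT C L) (Option (ZMod N) ⊕ HT C L) where
  lab := Sum.elim (G0 N w).lab fun h => (l (ofLex h).1 (ofLex h).2).1
  src := Sum.elim (fun e => .inl ((G0 N w).src e)) fun h =>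
    if (l (ofLex h).1 (ofLex h).2).2 then hv N L (ofLex h).1 (ofLex h).2
    else hv N L (ofLex h).1 ((ofLex h).2 + 1)
  tgt := Sum.elim (fun e => .inl ((G0 N w).tgt e)) fun h =>
    if (l (ofLex h).1 (ofLex h).2).2 then hv N L (ofLex h).1 ((ofLex h).2 + 1)
    else hv N L (ofLex h).1 (ofLex h).2

omit [NeZero N] in
lemma G1_ends (h : HT C L) :
    (G1 N w L l).ends (l (ofLex h).1 (ofLex h).2).2 (.inr h) = hv N L (ofLex h).1 (ofLex h).2 ∧
    (G1 N w L l).ends (!(l (ofLex h).1 (ofLex h).2).2) (.inr h)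
      = hv N L (ofLex h).1 ((ofLex h).2 + 1) := by
  cases hd : (l (ofLex h).1 (ofLex h).2).2 <;> simp [G1, Gr.ends, hd]

omit [NeZero N] in
lemma G1_hairy : Hairy (G0 N w) (G1 N w L l) fun h => (l (ofLex h).1 (ofLex h).2).2 where
  lab _ := rfl
  src _ := rfl
  tgt _ := rfl
  out h := by rw [(G1_ends N w L l h).2]; simp [hv]
  par h := by
    rw [(G1_ends N w L l h).1]
    obtain ⟨c, k, hk⟩ := h
    cases k with
    | zero => exact Or.inl ⟨0, rfl⟩
    | succ k =>
      refine Or.inr ⟨toLex (c, ⟨k, by omega⟩), ?_, ?_⟩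
      · exact Prod.Lex.right _ (by simp [Fin.lt_def])
      · have : k < L := by omega
        exact dif_pos this

end concrete

theorem core {N : ℕ} {w : ℕ → Bool} (w0 : w 0 = true) (wN : w (N - 1) = true)
    {n1 r1 n2 r2 : ℕ} (R1 : Run N w n1 r1) (R2 : Run N w n2 r2)
    {ρ : F2 →* Equiv.Perm X} (hρ : ∀ g, MeasurePreserving (ρ g) μ μ)
    (gap : ∀ B, MeasurableSet B → μ.real B * (1 - μ.real B)
      ≤ 20 * (iv μ ρ B (pre w (n1 + r1)) + iv μ ρ B (pre w (n2 + r2))))
    {D0 : Set X} (hD0 : MeasurableSet D0) (hD1 : μ.real D0 = 1 / 2)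
    {C : ℕ} (u : Fin C → F2) (D : Fin C → Set X) (hD : ∀ c, MeasurableSet (D c))
    (hs : ∑ c, μ.real (D c) ≤ 1 / 5000)
    {J : Type} {lb : J → F2} {dom : J → Set X} {S : Set J}
    (hS : ∀ j ∈ S, lb j = of false ∨ lb j = pre w N ∨ ∃ c, lb j = u c ∧ dom j ⊆ D c) :
    μ {x | Chain ρ lb dom S x (pre w (n1 + r1))} ≤ ENNReal.ofReal (1 / 4) := by
  have hlt := R1.lt
  have h1 := R1.one
  haveI : NeZero N := ⟨by omega⟩
  have hC := G0_cyc N w w0 wN
  set L := univ.sup fun c => (u c).toWord.length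
  have hL : ∀ c, (u c).toWord.length ≤ L := fun c =>
    le_sup (f := fun c => (u c).toWord.length) (mem_univ c)
  set l : Fin C → ℕ → Bool × Bool := fun c k => (u c).toWord.getD k (true, true) with hl
  set D' : Fin C → Set X := fun c => ρ (u c) ⁻¹' D c
  have hD' : ∀ c, MeasurableSet (D' c) := fun c => (hρ _).measurable (hD c)
  set fin : Fin C → ZMod N ⊕ HT C L := fun c => hv N L c (u c).toWord.length
  have hE := P0_energy (G1 N w L l) (mp_sg hρ) (.inl 0) fin hD'
  have e1 : ∀ c, μ.real (D' c) = μ.real (D c) := fun c => by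
    rw [Measure.real, (hρ _).measure_preimage (hD c).nullMeasurableSet]; rfl
  simp only [e1, Fintype.card_sum, Fintype.card_option] at hE
  push_cast at hE
  obtain ⟨P, p1, p2, p3, p4⟩ := exists_closed hC R1 R2 hρ gap hD0 hD1 (G1_hairy N w L l)
    (P0_st (.inl 0) fin hD') (by linarith) (by
      ext x
      simp only [Tch, Set.mem_setOf_eq, Set.mem_empty_iff_false, iff_false, not_not]
      have nb : ((1 : ℕ) : ZMod N) ≠ 0 := fun q => by
        have := hC.inj 1 (by omega) 0 (by omega) (q.trans hC.v0.symm); omega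
      rintro u' (h | ⟨h | ⟨c, h, _⟩, _⟩)
      · exact (Sum.inl_injective h).symm
      · exact absurd (Sum.inl_injective h) nb
      · simp only [fin] at h
        generalize (u c).toWord.length = k at h
        cases k with
        | zero => exact absurd (Sum.inl_injective h) nb
        | succ k =>
          simp only [hv] at h
          split_ifs at h
          exact absurd (Sum.inl_injective h) nb)
  have rW : ∀ y, ∀ k ≤ N, RdG (G1 N w L l) ρ P (pre w k) y (.inl 0) (.inl (k : ZMod N)) := by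
    intro y k hk
    induction k with
    | zero => exact RdG.refl (by rw [Nat.cast_zero]; exact (p1 _).refl _)
    | succ k ih =>
      refine RdG.mul p1 (ih (by omega)) ?_
      have := RdG.edge (G := G1 N w L l) (ρ := ρ) p1 (.inl (some (k : ZMod N))) true
        (ρ (pre w k)⁻¹ y)
      simpa [G1, G0, Gr.ends, ZMod.val_cast_of_lt (show k < N by omega), of] using this
  have rH : ∀ y c, ∀ k ≤ (u c).toWord.length,
      RdG (G1 N w L l) ρ P (mk ((u c).toWord.take k)) y (.inl 0) (hv N L c k) := by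
    intro y c k hk
    induction k with
    | zero => exact RdG.refl ((p1 _).refl _)
    | succ k ih =>
      have hk' : k < (u c).toWord.length := hk
      have hkL : k < L := hk'.trans_le (hL c)
      rw [List.take_succ_eq_append_getElem hk', ← mul_mk]
      refine RdG.mul p1 (ih (by omega)) ?_
      have := RdG.edge (G := G1 N w L l) (ρ := ρ) p1 (.inr (toLex (c, ⟨k, hkL⟩))) (l c k).2
        (ρ (mk ((u c).toWord.take k))⁻¹ y)
      have q := G1_ends N w L l (toLex (c, ⟨k, hkL⟩))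
      simp only [ofLex_toLex] at q
      rw [q.1, q.2] at this
      have e2 : (u c).toWord[k] = ((G1 N w L l).lab (.inr (toLex (c, ⟨k, hkL⟩))), (l c k).2) := by
        simp [G1, hl, hk']
      rw [e2]; exact this
  have rS : ∀ j ∈ S, ∀ y ∈ dom j, RdG (G1 N w L l) ρ P (lb j) y (.inl 0) (.inl 0) := by
    intro j hj y hy
    rcases hS j hj with h | h | ⟨c, h, hc⟩
    · rw [h]; exact RdG.edge (G := G1 N w L l) p1 (.inl none) true y
    · rw [h]; simpa using rW y N le_rfl
    · have := rH y c _ le_rfl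
      rw [List.take_length, mk_toWord] at this
      rw [h, ← mul_one (u c)]
      refine RdG.mul p1 this (RdG.refl (p3 _ _ _ (Or.inr ⟨Or.inr ⟨c, rfl, ?_⟩, Or.inl rfl⟩)))
      simpa [D'] using hc hy
  refine le_trans ?_ p4
  have tm : ∀ T : Set X, μ (ρ (pre w (n1 + r1))⁻¹ ⁻¹' T) ≤ μ T := fun T =>
    (hρ _).measure_preimage_le T
  refine le_trans (measure_mono fun x hx => ?_) (tm _)
  intro hsing
  set g := pre w (n1 + r1)
  have a1 := RdG.inv p1 (rW (ρ g⁻¹ x) 1 (by omega))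
  have a2 := RdG.inv p1 (Chain.read p1 (.inl 0) rS hx)
  have a3 := rW x (n1 + r1 + 1) (by omega)
  have a4 := RdG.mul p1 a2 (by rw [rho_cancel]; exact a3)
  have a5 := RdG.mul p1 a1 (by rw [rho_cancel]; exact a4)
  have e3 : (pre w 1)⁻¹ * (g⁻¹ * pre w (n1 + r1 + 1)) = 1 := by
    simp [pre, g, w0, R1.aft]
  rw [e3] at a5
  have a6 := hsing ((n1 + r1 + 1 : ℕ) : ZMod N) (by rw [Lc_sg]; exact RdG.one p1 p2 a5)
  by_cases q : n1 + r1 + 1 = N
  · rw [q] at a6
    have := hC.inj 0 (by omega) 1 (by omega) (hC.v0.trans (hC.vN.symm.trans a6)); omega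
  · have := hC.inj _ (by omega) 1 (by omega) a6; omega

end Vale.Agent.P189
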