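import Mathlib

/-! Counting classes of equivalence relations on finite types. -/

namespace Vale.Agent.P189

open Finset Classical

variable {α : Type*} [Fintype α]

noncomputable def cl (r : α → α → Prop) (v : α) : Finset α := univ.filter (r v)

noncomputable def cnt (r : α → α → Prop) (S : Finset α) : ℕ := (S.image (cl r)).card

lemma cl_eq_iff {r : α → α → Prop} (hr : Equivalence r) {u v : α} : cl r u = cl r v ↔ r u v := by
  constructor
  · intro h
    have : v ∈ cl r v := by simp [cl, hr.refl]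
    rw [← h] at this
    simpa [cl] using this
  · intro h
    ext w
    simp only [cl, mem_filter, mem_univ, true_and]
    exact ⟨fun h' => hr.trans (hr.symm h) h', fun h' => hr.trans h h'⟩

lemma cnt_le_card (r : α → α → Prop) (S : Finset α) : cnt r S ≤ S.card := card_image_le

lemma cnt_mono_set (r : α → α → Prop) {S T : Finset α} (h : S ⊆ T) : cnt r S ≤ cnt r T :=
  card_le_card (image_subset_image h)

lemma cnt_union_le (r : α → α → Prop) (S T : Finset α) : cnt r (S ∪ T) ≤ cnt r S + cnt r T := by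
  unfold cnt; rw [image_union]; exact card_union_le _ _

/-- comparison through a map that reflects the relation and is onto up to the relation. -/
lemma cnt_le_of_map [Nonempty α] {β : Type*} [Fintype β] {r : α → α → Prop} {s : β → β → Prop}
    (hr : Equivalence r) (hs : Equivalence s) (S : Finset α) (T : Finset β) (f : α → β)
    (hf : ∀ u ∈ S, ∃ t ∈ T, s (f u) t) (hinj : ∀ u ∈ S, ∀ v ∈ S, s (f u) (f v) → r u v) :
    cnt r S ≤ cnt s T := by
  unfold cnt
  have hch : ∀ c ∈ S.image (cl r), ∃ u ∈ S, cl r u = c := fun c hc => by simpa using hc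
  choose! g hgS hg using hch
  refine card_le_card_of_injOn (fun c => cl s (f (g c))) ?_ ?_
  · intro c hc
    obtain ⟨t, ht, h⟩ := hf _ (hgS c hc)
    simp only [coe_image, Set.mem_image, mem_coe]
    exact ⟨t, ht, ((cl_eq_iff hs).2 h).symm⟩
  · intro c hc d hd h
    have h1 := hinj _ (hgS c hc) _ (hgS d hd) ((cl_eq_iff hs).1 h)
    rw [← hg c hc, ← hg d hd]; exact (cl_eq_iff hr).2 h1

lemma card_le_cnt {ι : Type*} {r : α → α → Prop} (hr : Equivalence r) (I : Finset ι) (f : ι → α)
    (S : Finset α) (hf : ∀ i ∈ I, ∃ t ∈ S, r (f i) t)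
    (hinj : ∀ i ∈ I, ∀ j ∈ I, r (f i) (f j) → i = j) : I.card ≤ cnt r S := by
  unfold cnt
  refine card_le_card_of_injOn (fun i => cl r (f i)) ?_ ?_
  · intro i hi
    obtain ⟨t, ht, h⟩ := hf _ hi
    simp only [coe_image, Set.mem_image, mem_coe]
    exact ⟨t, ht, ((cl_eq_iff hr).2 h).symm⟩
  · intro i hi j hj h
    exact hinj i hi j hj ((cl_eq_iff hr).1 h)

lemma cnt_add_of_sep {r : α → α → Prop} (hr : Equivalence r) (S T : Finset α)
    (h : ∀ u ∈ S, ∀ v ∈ T, ¬ r u v) : cnt r (S ∪ T) = cnt r S + cnt r T := by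
  unfold cnt
  rw [image_union, card_union_of_disjoint]
  rw [disjoint_left]
  intro c hc hd
  obtain ⟨u, hu, rfl⟩ := mem_image.1 hc
  obtain ⟨v, hv, h2⟩ := mem_image.1 hd
  exact h u hu v hv (hr.symm ((cl_eq_iff hr).1 h2))

lemma cnt_add_of_sep' {r : α → α → Prop} (hr : Equivalence r) (U S T : Finset α)
    (hU : ∀ a, a ∈ U ↔ a ∈ S ∨ a ∈ T)
    (h : ∀ u ∈ S, ∀ v ∈ T, ¬ r u v) : cnt r U = cnt r S + cnt r T := by
  rw [← cnt_add_of_sep hr S T h]; congr 1; ext a; simp [hU]

lemma cnt_cover (r : α → α → Prop) (U S T : Finset α) (hU : ∀ a ∈ U, a ∈ S ∨ a ∈ T) :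
    cnt r U ≤ cnt r S + cnt r T :=
  (cnt_mono_set r fun a ha => mem_union.2 (hU a ha)).trans (cnt_union_le r S T)

lemma cnt_anti [Nonempty α] {r s : α → α → Prop} (hr : Equivalence r) (hs : Equivalence s)
    (h : ∀ u v, r u v → s u v) (S : Finset α) : cnt s S ≤ cnt r S :=
  cnt_le_of_map hs hr S S id (fun u hu => ⟨u, hu, hr.refl _⟩) fun u _ v _ h' => h u v h'

lemma cnt_insert_le (r : α → α → Prop) (S : Finset α) (a : α) :
    cnt r (insert a S) ≤ cnt r S + 1 := by
  unfold cnt; rw [image_insert]; exact card_insert_le _ _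

lemma cnt_singleton (r : α → α → Prop) (a : α) : cnt r {a} = 1 := by simp [cnt]

/-- a strict coarsening drops the count. -/
lemma cnt_lt [Nonempty α] {r s : α → α → Prop} (hr : Equivalence r) (hs : Equivalence s)
    (h : ∀ u v, r u v → s u v) {a b : α} (hab : s a b) (hn : ¬ r a b) :
    cnt s univ + 1 ≤ cnt r univ := by
  set T := univ.filter (fun u => ¬ r u b) with hT
  have h1 : cnt s univ ≤ cnt r T := by
    refine cnt_le_of_map hs hr _ _ (fun u => if r u b then a else u) ?_ ?_
    · intro u _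
      by_cases hu : r u b
      · exact ⟨a, by simp [hT, hn], by simp [hu, hr.refl]⟩
      · exact ⟨u, by simp [hT, hu], by simp [hu, hr.refl]⟩
    · intro u _ v _ huv
      have key : ∀ w, s w (if r w b then a else w) := fun w => by
        split_ifs with hw
        · exact hs.trans (h _ _ hw) (hs.symm hab)
        · exact hs.refl _
      exact hs.trans (key u) (hs.trans (h _ _ huv) (hs.symm (key v)))
  have h2 : cnt r (T ∪ {b}) = cnt r T + 1 := by
    rw [cnt_add_of_sep hr, cnt_singleton]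
    intro u hu v hv
    rw [mem_singleton] at hv; subst hv
    simpa [hT] using hu
  have h3 := cnt_mono_set r (subset_univ (T ∪ {b}))
  omega

def merge (r : α → α → Prop) (z z' : α) (u v : α) : Prop :=
  r u v ∨ (r u z ∧ r z' v) ∨ (r u z' ∧ r z v)

omit [Fintype α] in
lemma merge_equiv {r : α → α → Prop} (hr : Equivalence r) (z z' : α) :
    Equivalence (merge r z z') := by
  obtain ⟨h1, h2, h3⟩ := hr
  refine ⟨fun u => Or.inl (h1 u), ?_, ?_⟩
  · rintro u v (h | ⟨h, h'⟩ | ⟨h, h'⟩)
    · exact Or.inl (h2 h)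
    · exact Or.inr (Or.inr ⟨h2 h', h2 h⟩)
    · exact Or.inr (Or.inl ⟨h2 h', h2 h⟩)
  · rintro u v w (h | ⟨h, h'⟩ | ⟨h, h'⟩) (k | ⟨k, k'⟩ | ⟨k, k'⟩)
    · exact Or.inl (h3 h k)
    · exact Or.inr (Or.inl ⟨h3 h k, k'⟩)
    · exact Or.inr (Or.inr ⟨h3 h k, k'⟩)
    · exact Or.inr (Or.inl ⟨h, h3 h' k⟩)
    · exact Or.inr (Or.inl ⟨h, k'⟩)
    · exact Or.inl (h3 h k')
    · exact Or.inr (Or.inr ⟨h, h3 h' k⟩)
    · exact Or.inl (h3 h k')
    · exact Or.inr (Or.inr ⟨h, k'⟩)

lemma cnt_merge [Nonempty α] {r : α → α → Prop} (hr : Equivalence r) (z z' : α) :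
    cnt r univ ≤ cnt (merge r z z') univ + 1 := by
  set T := univ.filter (fun u => ¬ r u z') with hT
  have h1 : cnt r T ≤ cnt (merge r z z') univ := by
    refine cnt_le_of_map hr (merge_equiv hr z z') _ _ id
      (fun u _ => ⟨u, mem_univ _, (merge_equiv hr z z').refl _⟩) ?_
    intro u hu v hv huv
    simp only [hT, mem_filter, mem_univ, true_and] at hu hv
    rcases huv with h | ⟨_, h⟩ | ⟨h, _⟩
    · exact h
    · exact absurd (hr.symm h) hv
    · exact absurd h hu
  have h2 : cnt r univ ≤ cnt r (insert z' T) := by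
    refine cnt_le_of_map hr hr _ _ id ?_ (fun u _ v _ h => h)
    intro u _
    by_cases hu : r u z'
    · exact ⟨z', by simp, hu⟩
    · exact ⟨u, by simp [hT, hu], hr.refl _⟩
  have h3 := cnt_insert_le r T z'
  omega

/-- classes of `r` that are not classes of the coarser `s`. -/
lemma cnt_fiber [Nonempty α] {r s : α → α → Prop} (hr : Equivalence r) (hs : Equivalence s)
    (h : ∀ u v, r u v → s u v) :
    cnt r (univ.filter fun u => ∃ v, s u v ∧ ¬ r u v) + 2 * cnt s univ ≤ 2 * cnt r univ := by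
  set Bad := univ.filter (fun u => ∃ v, s u v ∧ ¬ r u v) with hB
  set Gd := univ.filter (fun u => ¬ ∃ v, s u v ∧ ¬ r u v) with hG
  have hU : Bad ∪ Gd = univ := filter_union_filter_not_eq _ _
  have hsep : ∀ u ∈ Bad, ∀ v ∈ Gd, ¬ s u v := by
    intro u hu v hv huv
    simp only [hB, hG, mem_filter, mem_univ, true_and, not_exists, not_and, not_not] at hu hv
    obtain ⟨w, hw, hn⟩ := hu
    exact hn (hr.trans (hr.symm (hv u (hs.symm huv))) (hv w (hs.trans (hs.symm huv) hw)))
  have e1 : cnt r univ = cnt r Bad + cnt r Gd := by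
    rw [← hU]; exact cnt_add_of_sep hr _ _ fun u hu v hv h' => hsep u hu v hv (h _ _ h')
  have e2 : cnt s univ = cnt s Bad + cnt s Gd := by
    rw [← hU]; exact cnt_add_of_sep hs _ _ hsep
  have e3 : cnt s Gd ≤ cnt r Gd := cnt_anti hr hs h _
  have e4 : 2 * cnt s Bad ≤ cnt r Bad := by
    have hch : ∀ c ∈ Bad.image (cl s), ∃ u, ∃ v, cl s u = c ∧ s u v ∧ ¬ r u v := by
      intro c hc
      obtain ⟨u, hu, rfl⟩ := mem_image.1 hc
      simp only [hB, mem_filter, mem_univ, true_and] at hu
      obtain ⟨v, h1, h2⟩ := hu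
      exact ⟨u, v, rfl, h1, h2⟩
    choose! g1 g2 hg hg2 hg3 using hch
    have := card_le_cnt hr ((Bad.image (cl s)) ×ˢ (univ : Finset Bool))
      (fun p => if p.2 then g1 p.1 else g2 p.1) Bad ?_ ?_
    · rw [card_product] at this
      simp only [card_univ, Fintype.card_bool] at this
      unfold cnt at *; omega
    · rintro ⟨c, b⟩ hc
      have hc' := (mem_product.1 hc).1
      cases b
      · exact ⟨g2 c, by
          simp only [hB, mem_filter, mem_univ, true_and]
          exact ⟨g1 c, hs.symm (hg2 c hc'), fun h' => hg3 c hc' (hr.symm h')⟩, by simp [hr.refl]⟩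
      · exact ⟨g1 c, by
          simp only [hB, mem_filter, mem_univ, true_and]
          exact ⟨g2 c, hg2 c hc', hg3 c hc'⟩, by simp [hr.refl]⟩
    · rintro ⟨c, b⟩ hc ⟨d, b'⟩ hd hrr
      have hc' := (mem_product.1 hc).1
      have hd' := (mem_product.1 hd).1
      have key : ∀ e ∈ Bad.image (cl s), ∀ b : Bool, cl s (if b then g1 e else g2 e) = e := by
        intro e he b
        cases b
        · simp only [Bool.false_eq_true, if_false]
          rw [← (cl_eq_iff hs).2 (hg2 e he)]; exact hg e he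
        · simpa using hg e he
      have hcd : c = d := by
        rw [← key c hc' b, ← key d hd' b']; exact (cl_eq_iff hs).2 (h _ _ hrr)
      subst hcd
      cases b <;> cases b' <;> simp at hrr ⊢
      · exact hg3 c hc' (hr.symm hrr)
      · exact hg3 c hc' hrr
  omega

end Vale.Agent.P189
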