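import Mathlib

/-! Cost of probability measure preserving actions. -/

namespace Vale.Agent.P189

open MeasureTheory

/-- A graphing of the orbit relation: a sequence of measure preserving Borel bijections
`φ i : A i → B i` between Borel sets, moving each point inside its orbit. -/
structure Graphing (Γ : Type) {X : Type} [Group Γ] [MulAction Γ X] [MeasurableSpace X]
    (μ : Measure X) where
  A : ℕ → Set X
  B : ℕ → Set X
  φ : ℕ → X → X
  measA : ∀ i, MeasurableSet (A i)
  measB : ∀ i, MeasurableSet (B i)
  bij : ∀ i, Set.BijOn (φ i) (A i) (B i)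
  pres : ∀ i, MeasurePreserving (φ i) (μ.restrict (A i)) (μ.restrict (B i))
  orb : ∀ i, ∀ x ∈ A i, φ i x ∈ MulAction.orbit Γ x

/-- For almost every `x`, every point of its orbit is reached by a finite chain of the maps
`φ i` and their inverses. -/
def Graphing.Generates {Γ X : Type} [Group Γ] [MulAction Γ X] [MeasurableSpace X]
    {μ : Measure X} (Φ : Graphing Γ μ) : Prop :=
  ∀ᵐ x ∂μ, ∀ y ∈ MulAction.orbit Γ x,
    Relation.EqvGen (fun u v => ∃ i, u ∈ Φ.A i ∧ Φ.φ i u = v) x y

/-- The cost of the action. -/
noncomputable def cost (Γ : Type) {X : Type} [Group Γ] [MulAction Γ X] [MeasurableSpace X]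
    (μ : Measure X) : ENNReal :=
  ⨅ (Φ : Graphing Γ μ) (_ : Φ.Generates), ∑' i, μ (Φ.A i)

/-- The action is Borel, measure preserving and essentially free. -/
def IsFreePmp (Γ : Type) {X : Type} [Group Γ] [MulAction Γ X] [MeasurableSpace X]
    (μ : Measure X) : Prop :=
  (∀ g : Γ, MeasurePreserving (fun x : X => g • x) μ μ) ∧
    ∀ g : Γ, g ≠ 1 → μ {x | g • x = x} = 0

end Vale.Agent.P189
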