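import Vale.Agent.P189.Count

/-! Partition fields over a measure preserving action and their energy. -/

namespace Vale.Agent.P189

open Finset Classical MeasureTheory

structure Gr (V E : Type) where
  lab : E → Bool
  src : E → V
  tgt : E → V

variable {X : Type} [MeasurableSpace X] {μ : Measure X} [IsProbabilityMeasure μ]
variable {V E : Type} [Fintype V] [Fintype E]

def eRel (G : Gr V E) (σ : Bool → Equiv.Perm X) (P : X → V → V → Prop) (x : X) (e e' : E) : Prop :=
  G.lab e = G.lab e' ∧ P x (G.src e) (G.src e') ∧ P (σ (G.lab e) x) (G.tgt e) (G.tgt e')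

noncomputable def En (μ : Measure X) (G : Gr V E) (σ : Bool → Equiv.Perm X)
    (P : X → V → V → Prop) : ℝ :=
  ∫ x, (cnt (eRel G σ P x) univ : ℝ) ∂μ - ∫ x, (cnt (P x) univ : ℝ) ∂μ

structure St (P : X → V → V → Prop) : Prop where
  meas : Measurable P
  eqv : ∀ x, Equivalence (P x)

omit [Fintype V] in
lemma St.m {P : X → V → V → Prop} (h : St P) (u v : V) : Measurable fun x => P x u v :=
  (measurable_pi_apply v).comp ((measurable_pi_apply u).comp h.meas)

omit [Fintype V] [Fintype E] [MeasurableSpace X] in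
lemma eRel_equiv (G : Gr V E) (σ : Bool → Equiv.Perm X) {P : X → V → V → Prop}
    (h : ∀ x, Equivalence (P x)) (x : X) : Equivalence (eRel G σ P x) := by
  refine ⟨fun e => ⟨rfl, (h _).refl _, (h _).refl _⟩, ?_, ?_⟩
  · rintro e e' ⟨h1, h2, h3⟩
    exact ⟨h1.symm, (h _).symm h2, h1 ▸ (h _).symm h3⟩
  · rintro e e' e'' ⟨h1, h2, h3⟩ ⟨k1, k2, k3⟩
    exact ⟨h1.trans k1, (h _).trans h2 k2, (h _).trans h3 (h1 ▸ k3)⟩

omit [Fintype V] [Fintype E] in
lemma St.e {P : X → V → V → Prop} (h : St P) (G : Gr V E) {σ : Bool → Equiv.Perm X}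
    (hσ : ∀ s, Measurable (σ s)) : St (eRel G σ P) := by
  refine ⟨?_, eRel_equiv G σ h.eqv⟩
  refine measurable_pi_iff.2 fun e => measurable_pi_iff.2 fun e' => ?_
  exact measurable_const.and ((h.m _ _).and ((h.m _ _).comp (hσ _)))

lemma integrable_fin {β : Type*} [Finite β] [MeasurableSpace β] [MeasurableSingletonClass β]
    {Q : X → β} (hQ : Measurable Q) (F : β → ℝ) : Integrable (fun x => F (Q x)) μ :=
  (Integrable.of_finite (μ := μ.map Q) (f := F)).comp_measurable hQ

lemma St.int {P : X → V → V → Prop} (h : St P) (S : Finset V) :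
    Integrable (fun x => (cnt (P x) S : ℝ)) μ :=
  integrable_fin h.meas fun r => (cnt r S : ℝ)

lemma int_ind {Z : Set X} (hZ : MeasurableSet Z) {T : X → X} (hT : MeasurePreserving T μ μ) :
    Integrable (fun x => Z.indicator (1 : X → ℝ) (T x)) μ ∧
      ∫ x, Z.indicator (1 : X → ℝ) (T x) ∂μ = μ.real Z := by
  have : (fun x => Z.indicator (1 : X → ℝ) (T x)) = (T ⁻¹' Z).indicator 1 := by
    ext x; by_cases hx : T x ∈ Z <;> simp [Set.indicator, hx]
  rw [this]
  have hm := hT.measurable hZ
  refine ⟨(integrable_const (1 : ℝ)).indicator hm, ?_⟩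
  rw [integral_indicator_one hm, Measure.real, hT.measure_preimage hZ.nullMeasurableSet]
  rfl

def Gr.ends (G : Gr V E) (b : Bool) (e : E) : V := if b then G.src e else G.tgt e

def mv (σ : Bool → Equiv.Perm X) (s b : Bool) : Equiv.Perm X := if b then σ s else (σ s)⁻¹

def fcond (G : Gr V E) (σ : Bool → Equiv.Perm X) (e e' : E) (b : Bool) (D : Set X)
    (P : X → V → V → Prop) (y : X) : Prop :=
  (mv σ (G.lab e) b)⁻¹ y ∈ D ∧ G.lab e = G.lab e' ∧
    P ((mv σ (G.lab e) b)⁻¹ y) (G.ends b e) (G.ends b e')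

def fold (G : Gr V E) (σ : Bool → Equiv.Perm X) (e e' : E) (b : Bool) (D : Set X)
    (P : X → V → V → Prop) (y : X) (u v : V) : Prop :=
  P y u v ∨ (fcond G σ e e' b D P y ∧ merge (P y) (G.ends (!b) e) (G.ends (!b) e') u v)

/-- both directions are measure preserving. -/
structure MP (μ : Measure X) (σ : Bool → Equiv.Perm X) : Prop where
  fwd : ∀ s, MeasurePreserving (σ s) μ μ
  bwd : ∀ s, MeasurePreserving ((σ s)⁻¹ : Equiv.Perm X) μ μ

omit [IsProbabilityMeasure μ] in
lemma MP.mv {σ : Bool → Equiv.Perm X} (h : MP μ σ) (s b : Bool) :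
    MeasurePreserving (mv σ s b) μ μ := by
  cases b
  · exact h.bwd s
  · exact h.fwd s

omit [IsProbabilityMeasure μ] in
lemma MP.mvi {σ : Bool → Equiv.Perm X} (h : MP μ σ) (s b : Bool) :
    MeasurePreserving ((P189.mv σ s b)⁻¹ : Equiv.Perm X) μ μ := by
  cases b
  · simpa [P189.mv] using h.fwd s
  · exact h.bwd s

variable {G : Gr V E} {σ : Bool → Equiv.Perm X} {e e' : E} {b : Bool} {D : Set X}
  {P : X → V → V → Prop}

omit [Fintype V] [Fintype E] [IsProbabilityMeasure μ] in
lemma fcond_meas (hσ : MP μ σ) (hD : MeasurableSet D) (h : St P) :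
    Measurable (fcond G σ e e' b D P) := by
  have := (hσ.mvi (G.lab e) b).measurable
  exact ((measurableSet_setOf.1 hD).comp this).and (measurable_const.and ((h.m _ _).comp this))

omit [Fintype V] [Fintype E] [MeasurableSpace X] in
lemma fold_pos {y : X} (hc : fcond G σ e e' b D P y) :
    fold G σ e e' b D P y = merge (P y) (G.ends (!b) e) (G.ends (!b) e') := by
  ext u v
  exact ⟨fun h => h.elim Or.inl And.right, fun h => Or.inr ⟨hc, h⟩⟩

omit [Fintype V] [Fintype E] [MeasurableSpace X] in
lemma fold_neg {y : X} (hc : ¬ fcond G σ e e' b D P y) : fold G σ e e' b D P y = P y := by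
  ext u v
  exact ⟨fun h => h.elim id fun h => absurd h.1 hc, Or.inl⟩

omit [Fintype V] [Fintype E] [IsProbabilityMeasure μ] in
lemma fold_st (hσ : MP μ σ) (hD : MeasurableSet D) (h : St P) : St (fold G σ e e' b D P) := by
  constructor
  · refine measurable_pi_iff.2 fun u => measurable_pi_iff.2 fun v => ?_
    exact (h.m _ _).or ((fcond_meas hσ hD h).and ((h.m _ _).or
      (((h.m _ _).and (h.m _ _)).or ((h.m _ _).and (h.m _ _)))))
  · intro y
    by_cases hc : fcond G σ e e' b D P y
    · rw [fold_pos hc]; exact merge_equiv (h.eqv y) _ _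
    · rw [fold_neg hc]; exact h.eqv y

lemma fold_energy [Nonempty V] (hσ : MP μ σ) (hD : MeasurableSet D) (h : St P) :
    En μ G σ (fold G σ e e' b D P) ≤ En μ G σ P := by
  haveI : Nonempty E := ⟨e⟩
  have h' := fold_st (G := G) (e := e) (e' := e') (b := b) hσ hD h
  set P' := fold G σ e e' b D P with hP'
  set Z : Set X := {y | fcond G σ e e' b D P y ∧ ¬ P y (G.ends (!b) e) (G.ends (!b) e')} with hZ
  have hZm : MeasurableSet Z := measurableSet_setOf.2 ((fcond_meas hσ hD h).and (h.m _ _).not)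
  set T : X → X := fun x => if b then σ (G.lab e) x else x with hT
  have hTm : MeasurePreserving T μ μ := by
    cases b
    · exact MeasurePreserving.id μ
    · exact hσ.fwd _
  have hle : ∀ y u v, P y u v → P' y u v := fun y u v h => Or.inl h
  have h1 : ∀ y, (cnt (P y) univ : ℝ) ≤ cnt (P' y) univ + Z.indicator 1 (id y) := by
    intro y
    by_cases hy : y ∈ Z
    · have := cnt_merge (h.eqv y) (G.ends (!b) e) (G.ends (!b) e')
      rw [← fold_pos hy.1] at this
      simp only [id, Set.indicator_of_mem hy, Pi.one_apply]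
      exact_mod_cast this
    · simp only [id, Set.indicator_of_notMem hy, add_zero, Nat.cast_le]
      refine cnt_anti (h'.eqv y) (h.eqv y) ?_ _
      rintro u v (huv | ⟨hc, huv⟩)
      · exact huv
      · have hz : P y (G.ends (!b) e) (G.ends (!b) e') := by
          by_contra hz; exact hy ⟨hc, hz⟩
        have q := h.eqv y
        rcases huv with k | ⟨k, k'⟩ | ⟨k, k'⟩
        · exact k
        · exact q.trans k (q.trans hz k')
        · exact q.trans k (q.trans (q.symm hz) k')
  have h2 : ∀ x, (cnt (eRel G σ P' x) univ : ℝ) + Z.indicator 1 (T x)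
      ≤ cnt (eRel G σ P x) univ := by
    intro x
    have hmono : ∀ f f', eRel G σ P x f f' → eRel G σ P' x f f' :=
      fun f f' ⟨a1, a2, a3⟩ => ⟨a1, hle _ _ _ a2, hle _ _ _ a3⟩
    by_cases hx : T x ∈ Z
    · simp only [Set.indicator_of_mem hx, Pi.one_apply]
      have hm : P' (T x) (G.ends (!b) e) (G.ends (!b) e') :=
        Or.inr ⟨hx.1, Or.inr (Or.inl ⟨(h.eqv _).refl _, (h.eqv _).refl _⟩)⟩
      obtain ⟨⟨_, c2, c3⟩, c4⟩ := hx
      have := cnt_lt (eRel_equiv G σ h.eqv x) (eRel_equiv G σ h'.eqv x) hmono (a := e) (b := e')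
        ?_ ?_
      · exact_mod_cast this
      · cases b
        · simp only [hT, mv, Gr.ends] at hm c3
          exact ⟨c2, by simpa using hm, hle _ _ _ (by simpa using c3)⟩
        · simp only [hT, mv, Gr.ends] at hm c3
          exact ⟨c2, hle _ _ _ (by simpa using c3), by simpa using hm⟩
      · rintro ⟨_, a2, a3⟩
        cases b
        · exact c4 (by simpa [hT, Gr.ends] using a2)
        · exact c4 (by simpa [hT, Gr.ends] using a3)
    · simp only [Set.indicator_of_notMem hx, add_zero, Nat.cast_le]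
      exact cnt_anti (eRel_equiv G σ h.eqv x) (eRel_equiv G σ h'.eqv x) hmono _
  have hσm : ∀ s, Measurable (σ s) := fun s => (hσ.fwd s).measurable
  obtain ⟨i1, j1⟩ := int_ind hZm (MeasurePreserving.id μ)
  obtain ⟨i2, j2⟩ := int_ind hZm hTm
  have k1 := integral_mono (h.int univ) ((h'.int univ).add i1) h1
  have k2 := integral_mono (((h'.e G hσm).int univ).add i2) ((h.e G hσm).int univ) h2
  simp only [Pi.add_apply] at k1 k2
  rw [integral_add (h'.int univ) i1, j1] at k1
  rw [integral_add ((h'.e G hσm).int univ) i2, j2] at k2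
  unfold En
  linarith

end Vale.Agent.P189
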