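import Vale.Agent.P189.Core

/-! Spectral gap of the Bernoulli shift from ping-pong sets. -/

namespace Vale.Agent.P189

open MeasureTheory Finset Classical

noncomputable def haarP (A : Type) [AddCommGroup A] [TopologicalSpace A] [IsTopologicalAddGroup A]
    [CompactSpace A] [MeasurableSpace A] [BorelSpace A] : Measure A := Measure.addHaarMeasure ⊤

section haar
variable {A : Type} [AddCommGroup A] [TopologicalSpace A] [IsTopologicalAddGroup A]
    [CompactSpace A] [MeasurableSpace A] [BorelSpace A]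

instance : (haarP A).IsAddHaarMeasure := by unfold haarP; infer_instance

instance : IsProbabilityMeasure (haarP A) :=
  ⟨by simpa [haarP] using Measure.addHaarMeasure_self (G := A) (K₀ := ⊤)⟩

end haar

variable {Γ : Type} [Group Γ] [Countable Γ]

abbrev BX (Γ : Type) := Γ → ZMod 2
abbrev Idx (Γ : Type) := Γ →₀ ZMod 2

noncomputable def sgn (z : ZMod 2) : ℝ := if z = 0 then 1 else -1

lemma sgn_add (a b : ZMod 2) : sgn (a + b) = sgn a * sgn b := by
  have h : ∀ z : ZMod 2, z = 0 ∨ z = 1 := by decide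
  have h2 : (1 : ZMod 2) + 1 = 0 := by decide
  rcases h a with rfl | rfl <;> rcases h b with rfl | rfl <;> simp [sgn, h2]

noncomputable def pr (s : Idx Γ) (x : BX Γ) : ZMod 2 := s.sum fun γ a => a * x γ

noncomputable def chi (s : Idx Γ) (x : BX Γ) : ℝ := sgn (pr s x)

omit [Group Γ] [Countable Γ] in
lemma chi_add (s t : Idx Γ) (x : BX Γ) : chi (s + t) x = chi s x * chi t x := by
  rw [chi, pr, Finsupp.sum_add_index' (by simp) (by intros; ring), sgn_add]; rfl

omit [Group Γ] [Countable Γ] in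
lemma chi_zero (x : BX Γ) : chi 0 x = 1 := by simp [chi, pr, sgn]

omit [Group Γ] [Countable Γ] in
lemma chi_meas (s : Idx Γ) : Measurable (chi s) :=
  (Measurable.of_discrete (f := sgn)).comp (Finset.measurable_sum _ fun γ _ =>
    (Measurable.of_discrete (f := fun z => s γ * z)).comp (measurable_pi_apply γ))

omit [Group Γ] in
lemma chi_int (s : Idx Γ) : Integrable (chi s) (haarP (BX Γ)) :=
  integrable_fin (Q := pr s) (Finset.measurable_sum _ fun γ _ =>
    (Measurable.of_discrete (f := fun z => s γ * z)).comp (measurable_pi_apply γ)) sgn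

omit [Group Γ] in
lemma chi_integral (s : Idx Γ) : ∫ x, chi s x ∂haarP (BX Γ) = if s = 0 then 1 else 0 := by
  split_ifs with h
  · simp [h, chi_zero]
  · obtain ⟨γ, hγ⟩ := Finsupp.support_nonempty_iff.2 h
    have h1 : s γ = 1 := by
      have h : ∀ z : ZMod 2, z ≠ 0 → z = 1 := by decide
      exact h _ (Finsupp.mem_support_iff.1 hγ)
    refine integral_eq_zero_of_add_left_eq_neg (g := Pi.single γ 1) fun x => ?_
    have : pr s (Pi.single γ 1 + x) = 1 + pr s x := by
      simp only [pr, Finsupp.sum, Pi.add_apply, mul_add, sum_add_distrib]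
      congr 1
      rw [sum_eq_single γ (fun b _ hb => by simp [hb]) (fun hb => absurd hγ hb)]
      simp [h1]
    rw [chi, this, sgn_add, chi, show sgn 1 = -1 by simp [sgn], neg_one_mul]

noncomputable def sh (g : Γ) : Idx Γ ≃ Idx Γ := Finsupp.equivCongrLeft (Equiv.mulLeft g)

def Tg (g : Γ) (x : BX Γ) : BX Γ := fun γ => x (g * γ)

omit [Countable Γ] in
lemma chi_Tg (g : Γ) (s : Idx Γ) (x : BX Γ) : chi s (Tg g x) = chi (sh g s) x := by
  simp [chi, pr, sh, Finsupp.sum_equivMapDomain, Tg]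

omit [Countable Γ] in
lemma sh_support (g : Γ) (s : Idx Γ) : (sh g s).support = s.support.image (g * ·) := by
  ext γ
  simp only [sh, Finsupp.equivCongrLeft_apply, Finsupp.mem_support_iff,
    Finsupp.equivMapDomain_apply, mem_image]
  exact ⟨fun h => ⟨_, h, by simp⟩, by rintro ⟨a, h, rfl⟩; simpa using h⟩

noncomputable def wt (Z : Set Γ) (s : Idx Γ) : ℝ :=
  if s = 0 then 1 else 1 / 2 + 3 / 2 * ((s.support.filter (· ∈ Z)).card / s.support.card)

omit [Group Γ] [Countable Γ] in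
lemma wt_nonneg (Z : Set Γ) (s : Idx Γ) : 0 ≤ wt Z s := by
  unfold wt; split_ifs <;> positivity

omit [Countable Γ] in
lemma wt_edge {g : Γ} {Xs Ys : Set Γ} (h : ∀ γ ∉ Ys, g * γ ∈ Xs) (s : Idx Γ) (a b : ℝ) :
    2 * (a * b) ≤ wt Ys s * a ^ 2 + wt Xs (sh g s) * b ^ 2 := by
  by_cases hs : s = 0
  · subst hs
    have : sh g (0 : Idx Γ) = 0 := by simp [sh]
    simp only [wt, this, if_true]; nlinarith [sq_nonneg (a - b)]
  have hs' : sh g s ≠ 0 := fun q => hs ((sh g).injective (by simpa [sh] using q))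
  have hn : (0 : ℝ) < s.support.card := by
    exact_mod_cast (Finsupp.support_nonempty_iff.2 hs).card_pos
  have c1 : (sh g s).support.card = s.support.card := by
    rw [sh_support, card_image_of_injective _ (mul_right_injective g)]
  have c2 : (s.support.filter (· ∉ Ys)).card ≤ ((sh g s).support.filter (· ∈ Xs)).card := by
    refine card_le_card_of_injOn (g * ·) (fun γ hγ => ?_) (mul_right_injective g).injOn
    simp only [coe_filter, Set.mem_setOf_eq, sh_support] at hγ ⊢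
    exact ⟨mem_image_of_mem _ hγ.1, h γ hγ.2⟩
  have c3 := card_filter_add_card_filter_not (s := s.support) (· ∈ Ys)
  simp only [wt, hs, hs', if_false, c1]
  set y : ℝ := (s.support.filter (· ∈ Ys)).card / s.support.card with hy
  set z : ℝ := ((sh g s).support.filter (· ∈ Xs)).card / s.support.card with hz
  have y0 : 0 ≤ y := by positivity
  have y1 : y ≤ 1 := by
    rw [hy, div_le_one hn]; exact_mod_cast card_filter_le _ _
  have z1 : 1 - y ≤ z := by
    rw [hy, hz, sub_le_iff_le_add, ← add_div, le_div_iff₀ hn, one_mul]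
    exact_mod_cast (by omega)
  have k1 : (2 - 3 / 2 * y) * b ^ 2 ≤ (1 / 2 + 3 / 2 * z) * b ^ 2 :=
    mul_le_mul_of_nonneg_right (by linarith) (sq_nonneg b)
  have k2 : 2 * (a * b) ≤ (1 / 2 + 3 / 2 * y) * a ^ 2 + (2 - 3 / 2 * y) * b ^ 2 := by
    have hp : 0 < 1 / 2 + 3 / 2 * y := by linarith
    have : 0 ≤ (1 / 2 + 3 / 2 * y) * ((1 / 2 + 3 / 2 * y) * a ^ 2 + (2 - 3 / 2 * y) * b ^ 2
        - 2 * (a * b)) := by
      nlinarith [sq_nonneg ((1 / 2 + 3 / 2 * y) * a - b), mul_nonneg (mul_nonneg y0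
        (sub_nonneg.2 y1)) (sq_nonneg b)]
    have := nonneg_of_mul_nonneg_right this hp
    linarith
  linarith

omit [Group Γ] [Countable Γ] in
lemma wt_sum {Z : Bool × Bool → Set Γ} (hZ : ∀ γ d d', γ ∈ Z d → γ ∈ Z d' → d = d') (s : Idx Γ) :
    ∑ d, wt (Z d) s ≤ 7 / 2 + if s = 0 then 1 / 2 else 0 := by
  by_cases hs : s = 0
  · simp [wt, hs]; norm_num
  have hn : (0 : ℝ) < s.support.card := by
    exact_mod_cast (Finsupp.support_nonempty_iff.2 hs).card_pos
  have c : ∑ d, (s.support.filter (· ∈ Z d)).card ≤ s.support.card := by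
    rw [← card_biUnion]
    · exact card_le_card (biUnion_subset.2 fun d _ => filter_subset _ _)
    · intro d _ d' _ hd
      exact disjoint_left.2 fun γ h h' => hd (hZ γ d d' (mem_filter.1 h).2 (mem_filter.1 h').2)
  have c' : ∑ d, ((s.support.filter (· ∈ Z d)).card : ℝ) / s.support.card ≤ 1 := by
    rw [← sum_div, div_le_one hn]; exact_mod_cast c
  simp only [wt, hs, if_false, sum_add_distrib, ← mul_sum, sum_const, card_univ]
  simp only [Fintype.card_prod, Fintype.card_bool]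
  norm_num
  linarith

omit [Group Γ] in
lemma corr (c d : Idx Γ → ℝ) (Ω : Finset (Idx Γ)) (hc : ∀ s ∉ Ω, c s = 0) (φ : Idx Γ → Idx Γ) :
    ∫ x, (∑ s ∈ Ω, c s * chi s x) * (∑ t ∈ Ω, d t * chi (φ t) x) ∂haarP (BX Γ)
      = ∑ t ∈ Ω, d t * c (φ t) := by
  have : ∀ x, (∑ s ∈ Ω, c s * chi s x) * (∑ t ∈ Ω, d t * chi (φ t) x)
      = ∑ t ∈ Ω, ∑ s ∈ Ω, d t * c s * chi (s + φ t) x := by
    intro x
    rw [sum_mul_sum, sum_comm]
    refine sum_congr rfl fun t _ => sum_congr rfl fun s _ => by rw [chi_add]; ring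
  simp only [this]
  rw [integral_finsetSum _ fun t _ => integrable_finsetSum _ fun s _ => (chi_int _).const_mul _]
  refine sum_congr rfl fun t _ => ?_
  rw [integral_finsetSum _ fun s _ => (chi_int _).const_mul _]
  simp only [integral_const_mul, chi_integral]
  have e : ∀ s u : Idx Γ, s + u = 0 ↔ s = u := fun s u => by
    have h : ∀ a b : ZMod 2, a + b = 0 ↔ a = b := by decide
    simp [Finsupp.ext_iff, h]
  simp only [e, mul_ite, mul_one, mul_zero, sum_ite_eq']
  split_ifs with h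
  · rfl
  · rw [hc _ h, mul_zero]

lemma gap_span {g : Bool → Γ} {Z : Bool × Bool → Set Γ}
    (hZ : ∀ γ d d', γ ∈ Z d → γ ∈ Z d' → d = d')
    (hg : ∀ s, ∀ γ ∉ Z (s, false), g s * γ ∈ Z (s, true)) {f : BX Γ → ℝ}
    (hf : f ∈ Submodule.span ℝ (Set.range (chi (Γ := Γ)))) :
    2 * ∑ s, ∫ x, f x * f (Tg (g s) x) ∂haarP (BX Γ)
      ≤ 7 / 2 * ∫ x, f x * f x ∂haarP (BX Γ) + 1 / 2 * (∫ x, f x ∂haarP (BX Γ)) ^ 2 := by
  obtain ⟨c, rfl⟩ := Finsupp.mem_span_range_iff_exists_finsupp.1 hf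
  set Ω := insert 0 c.support
  have hc : ∀ s ∉ Ω, c s = 0 := fun s hs => by
    by_contra h; exact hs (mem_insert_of_mem (Finsupp.mem_support_iff.2 h))
  have e : ∀ x, (c.sum fun i a => a • chi i) x = ∑ s ∈ Ω, c s * chi s x := fun x => by
    rw [Finsupp.sum_of_support_subset c (subset_insert 0 _) _ (by simp), Finset.sum_apply]; rfl
  simp only [e, chi_Tg]
  have e1 := corr c c Ω hc id
  simp only [id] at e1
  have e2 : ∫ x, ∑ s ∈ Ω, c s * chi s x ∂haarP (BX Γ) = c 0 := by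
    rw [integral_finsetSum _ fun s _ => (chi_int _).const_mul _]
    simp [integral_const_mul, chi_integral, Ω]
  simp only [corr c c Ω hc, e1, e2]
  have k1 : ∀ s, 2 * ∑ t ∈ Ω, c t * c (sh (g s) t)
      ≤ ∑ t ∈ Ω, wt (Z (s, false)) t * c t ^ 2 + ∑ t ∈ Ω, wt (Z (s, true)) t * c t ^ 2 := by
    intro s
    have a1 : ∑ t ∈ Ω, wt (Z (s, true)) (sh (g s) t) * c (sh (g s) t) ^ 2
        ≤ ∑ t ∈ Ω, wt (Z (s, true)) t * c t ^ 2 := by
      rw [← sum_image (f := fun t => wt (Z (s, true)) t * c t ^ 2) (sh (g s)).injective.injOn]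
      refine (sum_le_sum_of_subset_of_nonneg (subset_union_left (s₂ := Ω)) fun t _ _ =>
        mul_nonneg (wt_nonneg _ _) (sq_nonneg _)).trans (le_of_eq (sum_subset subset_union_right
          fun t _ ht => by rw [hc t ht]; simp).symm)
    have a2 := sum_le_sum fun t (_ : t ∈ Ω) => wt_edge (hg s) t (c t) (c (sh (g s) t))
    rw [sum_add_distrib, ← mul_sum] at a2
    linarith
  have k2 : ∑ t ∈ Ω, (∑ d, wt (Z d) t) * c t ^ 2
      ≤ ∑ t ∈ Ω, (7 / 2 + if t = 0 then 1 / 2 else 0) * c t ^ 2 :=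
    sum_le_sum fun t _ => mul_le_mul_of_nonneg_right (wt_sum hZ t) (sq_nonneg _)
  simp only [Fintype.sum_prod_type, Fintype.sum_bool, add_mul, sum_add_distrib, ite_mul, zero_mul,
    sum_ite_eq', ← mul_sum] at k2 ⊢
  rw [if_pos (mem_insert_self _ _)] at k2
  have := k1 true
  have := k1 false
  simp only [← sq]
  linarith

omit [Group Γ] [Countable Γ] in
lemma span_mul {f h : BX Γ → ℝ} (hf : f ∈ Submodule.span ℝ (Set.range (chi (Γ := Γ))))
    (hh : h ∈ Submodule.span ℝ (Set.range (chi (Γ := Γ)))) :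
    f * h ∈ Submodule.span ℝ (Set.range (chi (Γ := Γ))) := by
  have := Submodule.mul_mem_mul hf hh
  rw [Submodule.span_mul_span] at this
  refine Submodule.span_mono ?_ this
  rintro _ ⟨_, ⟨s, rfl⟩, _, ⟨t, rfl⟩, rfl⟩
  exact ⟨s + t, funext fun x => chi_add s t x⟩

def Alg (Γ : Type) : Set (Set (BX Γ)) :=
  {C | MeasurableSet C ∧ C.indicator (1 : BX Γ → ℝ) ∈ Submodule.span ℝ (Set.range chi)}

omit [Group Γ] in
lemma alg_dense : (haarP (BX Γ)).MeasureDense (Alg Γ) := by
  have one : (1 : BX Γ → ℝ) ∈ Submodule.span ℝ (Set.range (chi (Γ := Γ))) :=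
    Submodule.subset_span ⟨0, funext chi_zero⟩
  have hc : ∀ ⦃s⦄, s ∈ Alg Γ → sᶜ ∈ Alg Γ := fun s hs =>
    ⟨hs.1.compl, by rw [Set.indicator_compl]; exact sub_mem one hs.2⟩
  have hi : ∀ ⦃s t⦄, s ∈ Alg Γ → t ∈ Alg Γ → s ∩ t ∈ Alg Γ := fun s t hs ht =>
    ⟨hs.1.inter ht.1, by rw [Set.inter_indicator_one]; exact span_mul hs.2 ht.2⟩
  refine Measure.MeasureDense.of_generateFrom_isSetAlgebra_finite _
    ⟨⟨MeasurableSet.empty, by rw [Set.indicator_empty]; exact zero_mem _⟩, hc, fun s t hs ht => ?_⟩ (le_antisymm ?_ ?_)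
  · rw [← compl_compl (s ∪ t), Set.compl_union]; exact hc (hi (hc hs) (hc ht))
  · refine iSup_le fun γ => ?_
    rintro _ ⟨T, -, rfl⟩
    refine MeasurableSpace.measurableSet_generateFrom ⟨measurable_pi_apply γ trivial, ?_⟩
    have h : ∀ z : ZMod 2, z = 0 ∨ z = 1 := by decide
    have : ((fun b : BX Γ => b γ) ⁻¹' T).indicator (1 : BX Γ → ℝ)
        = ((T.indicator 1 0 + T.indicator 1 1) / 2 : ℝ) • (1 : BX Γ → ℝ)
          + ((T.indicator 1 0 - T.indicator 1 1) / 2 : ℝ) • chi (Finsupp.single γ 1) := by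
      ext x
      have e : chi (Finsupp.single γ 1) x = sgn (x γ) := by simp [chi, pr]
      have e2 : ((fun b : BX Γ => b γ) ⁻¹' T).indicator (1 : BX Γ → ℝ) x
          = T.indicator (1 : ZMod 2 → ℝ) (x γ) := rfl
      simp only [Pi.add_apply, Pi.smul_apply, e, e2, smul_eq_mul, Pi.one_apply]
      rcases h (x γ) with q | q <;> rw [q] <;> simp [sgn] <;> ring
    rw [this]
    exact add_mem (Submodule.smul_mem _ _ one)
      (Submodule.smul_mem _ _ (Submodule.subset_span ⟨_, rfl⟩))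
  · exact MeasurableSpace.generateFrom_le fun t ht => ht.1

lemma Tg_mp (g : Γ) : MeasurePreserving (Tg g) (haarP (BX Γ)) (haarP (BX Γ)) :=
  AddMonoidHom.measurePreserving
    (f := { toFun := Tg g, map_zero' := rfl, map_add' := fun _ _ => rfl })
    (continuous_pi fun _ => continuous_apply _)
    (fun y => ⟨Tg g⁻¹ y, funext fun γ => congrArg y (inv_mul_cancel_left g γ)⟩) rfl

theorem gap {g : Bool → Γ} {Z : Bool × Bool → Set Γ}
    (hZ : ∀ γ d d', γ ∈ Z d → γ ∈ Z d' → d = d')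
    (hg : ∀ s, ∀ γ ∉ Z (s, false), g s * γ ∈ Z (s, true)) {B : Set (BX Γ)}
    (hB : MeasurableSet B) :
    (haarP (BX Γ)).real B * (1 - (haarP (BX Γ)).real B)
      ≤ 4 * ∑ s, (haarP (BX Γ)).real {x | x ∈ B ∧ Tg (g s) x ∉ B} := by
  set μ := haarP (BX Γ)
  refine le_of_forall_pos_le_add fun ε hε => ?_
  obtain ⟨C, ⟨hC, hC'⟩, h⟩ := alg_dense.approx B hB (measure_ne_top _ _) (ε / 17) (by positivity)
  have hη : μ.real (symmDiff B C) ≤ ε / 17 := (ENNReal.toReal_lt_of_lt_ofReal h).le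
  have k := gap_span hZ hg hC'
  have e1 : ∫ x, C.indicator (1 : BX Γ → ℝ) x * C.indicator 1 x ∂μ = μ.real C := by
    rw [← integral_indicator_one hC]; congr 1; ext x; by_cases q : x ∈ C <;> simp [q]
  have e2 : ∀ s, μ.real C - μ.real {x | x ∈ B ∧ Tg (g s) x ∉ B} - 2 * (ε / 17)
      ≤ ∫ x, C.indicator (1 : BX Γ → ℝ) x * C.indicator 1 (Tg (g s) x) ∂μ := by
    intro s
    have m := hC.inter ((Tg_mp (g s)).measurable hC)
    have : ∫ x, C.indicator (1 : BX Γ → ℝ) x * C.indicator 1 (Tg (g s) x) ∂μ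
        = μ.real (C ∩ Tg (g s) ⁻¹' C) := by
      rw [← integral_indicator_one m]; congr 1; ext x
      by_cases q : x ∈ C <;> by_cases q' : Tg (g s) x ∈ C <;> simp [q, q']
    rw [this]
    have sub : C ⊆ (C ∩ Tg (g s) ⁻¹' C) ∪ ({x | x ∈ B ∧ Tg (g s) x ∉ B}
        ∪ (symmDiff B C ∪ Tg (g s) ⁻¹' symmDiff B C)) := by
      intro x hx
      simp only [Set.mem_union, Set.mem_inter_iff, Set.mem_preimage, Set.mem_setOf_eq,
        Set.mem_symmDiff]
      tauto
    have u0 := measureReal_mono (μ := μ) sub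
    have u1 := measureReal_union_le (μ := μ) (C ∩ Tg (g s) ⁻¹' C) ({x | x ∈ B ∧ Tg (g s) x ∉ B}
        ∪ (symmDiff B C ∪ Tg (g s) ⁻¹' symmDiff B C))
    have u2 := measureReal_union_le (μ := μ) {x | x ∈ B ∧ Tg (g s) x ∉ B}
        (symmDiff B C ∪ Tg (g s) ⁻¹' symmDiff B C)
    have u3 := measureReal_union_le (μ := μ) (symmDiff B C) (Tg (g s) ⁻¹' symmDiff B C)
    have u4 : μ.real (Tg (g s) ⁻¹' symmDiff B C) = μ.real (symmDiff B C) := by
      rw [Measure.real, (Tg_mp (g s)).measure_preimage (hB.symmDiff hC).nullMeasurableSet]; rfl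
    linarith
  rw [e1, integral_indicator_one hC] at k
  have d1 := abs_le.1 ((abs_measureReal_sub_le_measureReal_symmDiff (μ := μ)
    hB.nullMeasurableSet hC.nullMeasurableSet).trans hη)
  have := e2 true
  have := e2 false
  simp only [Fintype.sum_bool] at k ⊢
  have b0 : 0 ≤ μ.real B := measureReal_nonneg
  have b1 : μ.real B ≤ 1 := measureReal_le_one
  have c0 : 0 ≤ μ.real C := measureReal_nonneg
  have c1 : μ.real C ≤ 1 := measureReal_le_one
  have : μ.real B * (1 - μ.real B) ≤ μ.real C * (1 - μ.real C) + ε / 17 := by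
    rcases le_total (μ.real B) (μ.real C) with q | q <;> nlinarith [d1.1, d1.2]
  nlinarith

end Vale.Agent.P189
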