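import Vale.Agent.P189.Word

/-! The locally free group. -/

namespace Vale.Agent.P189

open FreeGroup Filter

abbrev Fr := FreeGroup (Option ℕ)

def gen : Option ℕ → ℕ → F2
  | none => fun _ => of false
  | some i => fun n => grp (RR (n - i) i)

def ev : Fr →* (ℕ → F2) := lift gen

def KK : Subgroup Fr where
  carrier := {u | ∀ᶠ n in hyperfilter ℕ, ev u n = 1}
  one_mem' := by simp
  mul_mem' ha hb := (Eventually.and ha hb).mono fun n h => by simp [h.1, h.2]
  inv_mem' ha := Eventually.mono ha fun n h => by simp [h]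

instance : KK.Normal :=
  ⟨fun a ha g => Eventually.mono ha fun n h => by simp [h]⟩

abbrev Gam := Fr ⧸ KK

def pj : Fr →* Gam := QuotientGroup.mk' KK

lemma pj_surj : Function.Surjective pj := QuotientGroup.mk'_surjective KK

lemma pj_eq {u v : Fr} : pj u = pj v ↔ ∀ᶠ n in hyperfilter ℕ, ev u n = ev v n := by
  rw [pj, QuotientGroup.mk'_apply, QuotientGroup.mk'_apply, QuotientGroup.eq]
  change (∀ᶠ n in hyperfilter ℕ, ev (u⁻¹ * v) n = 1) ↔ _
  simp [inv_mul_eq_one]

instance : Countable Gam := pj_surj.countable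

lemma top_le {p : ℕ → Prop} (h : ∀ᶠ n in atTop, p n) : ∀ᶠ n in hyperfilter ℕ, p n :=
  Nat.hyperfilter_le_atTop h

lemma grp_RR (d i : ℕ) : grp (RR (d + 1) i) = grp (RR d (i + 1)) * of false ^ pp i *
    (grp (RR d (i + 1)) * of false ^ (2 * pp i) * grp (RR d (i + 1))) := by
  rw [RR, grp_append, grp_append]

section univ
variable {Λ : Type} [Group Λ] (τ : Λ) (α : ℕ → Λ)

def Rel : Prop := ∀ j, α j = α (j + 1) * τ ^ pp j * (α (j + 1) * τ ^ (2 * pp j) * α (j + 1))

def lv (n : ℕ) : F2 →* Λ := lift fun s => if s then α n else τ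

def gl : Fr →* Λ := lift fun o => o.elim τ α

variable {τ α}

lemma lv_RR (h : Rel τ α) (d i : ℕ) : lv τ α (i + d) (grp (RR d i)) = α i := by
  induction d generalizing i with
  | zero => simp [RR, grp, lv]
  | succ d ih =>
    have := ih (i + 1)
    rw [show i + 1 + d = i + (d + 1) by omega] at this
    rw [grp_RR, h i]
    simp only [MonoidHom.map_mul, MonoidHom.map_pow, this]
    simp [lv]

lemma gl_lv (h : Rel τ α) (u : Fr) : ∀ᶠ n in atTop, lv τ α n (ev u n) = gl τ α u := by
  induction u using FreeGroup.induction_on with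
  | C1 => simp
  | of o =>
    cases o with
    | none => simp [ev, gen, lv, gl]
    | some i =>
      refine (eventually_ge_atTop i).mono fun n hn => ?_
      have := lv_RR h (n - i) i
      rw [Nat.add_sub_cancel' hn] at this
      simpa [ev, gen, gl] using this
  | inv_of o ih => exact ih.mono fun n hn => by simp only [MonoidHom.map_inv, Pi.inv_apply, hn]
  | mul u v h1 h2 =>
    exact (h1.and h2).mono fun n hn => by simp only [MonoidHom.map_mul, Pi.mul_apply, hn.1, hn.2]

def desc (h : Rel τ α) : Gam →* Λ := QuotientGroup.lift KK (gl τ α) fun u hu => by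
  obtain ⟨n, h1, h2⟩ := ((top_le (gl_lv h u)).and hu).exists
  rw [MonoidHom.mem_ker, ← h1, h2, MonoidHom.map_one]

end univ

def tt : Gam := pj (of none)
def aa (i : ℕ) : Gam := pj (of (some i))

lemma desc_tt {Λ : Type} [Group Λ] {τ : Λ} {α : ℕ → Λ} (h : Rel τ α) : desc h tt = τ := by
  simp [desc, tt, pj, gl]

lemma desc_aa {Λ : Type} [Group Λ] {τ : Λ} {α : ℕ → Λ} (h : Rel τ α) (i : ℕ) :
    desc h (aa i) = α i := by
  simp [desc, aa, pj, gl]

lemma rel_gam : Rel tt aa := by
  intro j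
  simp only [tt, aa, ← MonoidHom.map_pow, ← MonoidHom.map_mul, pj_eq]
  refine top_le ((eventually_ge_atTop (j + 1)).mono fun n hn => ?_)
  simp only [ev, MonoidHom.map_mul, MonoidHom.map_pow, lift_apply_of, Pi.mul_apply, Pi.pow_apply,
    gen]
  rw [show n - j = n - (j + 1) + 1 by omega, grp_RR]

lemma gl_gam : gl tt aa = pj := by
  ext o; cases o <;> simp [gl, tt, aa]

lemma lv_ev (u : Fr) : ∀ᶠ n in atTop, lv tt aa n (ev u n) = pj u := gl_gam ▸ gl_lv rel_gam u

lemma lv_eq (i : ℕ) (f : F2) : lv tt aa i f = pj (lv (of none) (fun j => of (some j)) i f) := by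
  have : lv tt aa i = pj.comp (lv (of none) (fun j => of (some j)) i) := by
    ext s; cases s <;> simp [lv, tt, aa]
  rw [this]; rfl

instance : Infinite Gam := by
  rw [← not_finite_iff_infinite]
  intro h
  obtain ⟨n, hn, h1⟩ := isOfFinOrder_iff_pow_eq_one.1 (isOfFinOrder_of_finite tt)
  rw [tt, ← MonoidHom.map_pow, ← MonoidHom.map_one pj, pj_eq] at h1
  obtain ⟨k, hk⟩ := h1.exists
  obtain ⟨r, rfl⟩ : ∃ r, n = r + 1 := ⟨n - 1, by omega⟩
  have := tpow_sw (g := 1) (fun h => startsWith.ne_one _ h rfl) r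
  refine startsWith.ne_one _ this ?_
  simpa [ev, gen] using hk

def ZZ (d : Bool × Bool) : Set Gam :=
  {γ | ∃ u, pj u = γ ∧ ∀ᶠ n in hyperfilter ℕ, ev u n ∈ startsWith d}

lemma ZZ_disj (γ : Gam) (d d' : Bool × Bool) (h : γ ∈ ZZ d) (h' : γ ∈ ZZ d') : d = d' := by
  obtain ⟨u, rfl, h⟩ := h
  obtain ⟨v, e, h'⟩ := h'
  obtain ⟨n, ⟨a, b⟩, c⟩ := ((h.and h').and (pj_eq.1 e)).exists
  by_contra q
  exact sw_not a q (c ▸ b)

lemma ZZ_pp (i : ℕ) (s : Bool) (γ : Gam) (h : γ ∉ ZZ (s, false)) :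
    (if s then aa (i + 1) else tt ^ pp i) * γ ∈ ZZ (s, true) := by
  obtain ⟨u, rfl⟩ := pj_surj γ
  have h1 : ∀ᶠ n in hyperfilter ℕ, ev u n ∉ startsWith (s, false) :=
    Ultrafilter.eventually_not.2 fun q => h ⟨u, rfl, q⟩
  cases s
  · refine ⟨of none ^ pp i * u, by simp [tt], h1.mono fun n hn => ?_⟩
    simpa [ev, gen, pp] using tpow_sw hn (2 * i)
  · refine ⟨of (some (i + 1)) * u, by simp [aa], h1.mono fun n hn => ?_⟩
    simpa [ev, gen] using grp_sw _ hn

/-- heights modulo `3k+1` vanishing on a chosen generator. -/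
lemma exists_height (k i : ℕ) : ∃ χ : Gam →* Multiplicative (ZMod (3 * k + 1)),
    χ tt = Multiplicative.ofAdd 1 ∧ χ (aa i) = 1 := by
  let c : ZMod (3 * k + 1) → ℕ → ZMod (3 * k + 1) := fun z j =>
    Nat.rec z (fun j y => -(k : ZMod (3 * k + 1)) * y - pp j) j
  have h3 : (3 : ZMod (3 * k + 1)) * k = -1 := by
    have := ZMod.natCast_self (3 * k + 1)
    push_cast at this
    linear_combination this
  have hs : ∀ j y, ∃ z, c z j = y := by
    intro j
    induction j with
    | zero => exact fun y => ⟨y, rfl⟩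
    | succ j ih =>
      intro y
      obtain ⟨z, hz⟩ := ih (3 * (y + pp j))
      refine ⟨z, ?_⟩
      change -(k : ZMod (3 * k + 1)) * c z j - pp j = y
      rw [hz]; linear_combination (-(y + pp j)) * h3
  obtain ⟨z, hz⟩ := hs i 0
  have hr : Rel (Multiplicative.ofAdd (1 : ZMod (3 * k + 1)))
      fun j => Multiplicative.ofAdd (c z j) := by
    intro j
    have : c z (j + 1) = -(k : ZMod (3 * k + 1)) * c z j - pp j := rfl
    simp only [← ofAdd_nsmul, ← ofAdd_add, this, nsmul_eq_mul]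
    congr 1
    push_cast
    linear_combination (c z j) * h3
  exact ⟨desc hr, desc_tt hr, by rw [desc_aa, hz]; rfl⟩

end Vale.Agent.P189
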