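import Vale.Agent.P189.Energy

/-! Removing hairs does not increase the energy; the initial state. -/

namespace Vale.Agent.P189

open Finset Classical MeasureTheory

variable {H : Type} [Fintype H] [LinearOrder H]

def mn {β : Type} (r : β ⊕ H → β ⊕ H → Prop) (h : H) : Prop :=
  (∀ u, ¬ r (.inl u) (.inr h)) ∧ ∀ h' < h, ¬ r (.inr h') (.inr h)

def res {β : Type} (r : β ⊕ H → β ⊕ H → Prop) (u v : β) : Prop := r (.inl u) (.inl v)

omit [Fintype H] [LinearOrder H] in
lemma res_equiv {β : Type} {r : β ⊕ H → β ⊕ H → Prop} (hr : Equivalence r) :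
    Equivalence (res r) := ⟨fun _ => hr.refl _, fun h => hr.symm h, fun h h' => hr.trans h h'⟩

lemma cnt_sum {β : Type} [Fintype β] [Nonempty β] {r : β ⊕ H → β ⊕ H → Prop}
    (hr : Equivalence r) :
    cnt r univ = cnt (res r) univ + (univ.filter (mn r)).card := by
  set S1 : Finset (β ⊕ H) := univ.image Sum.inl
  set S2 : Finset (β ⊕ H) := (univ.filter (mn r)).image Sum.inr
  have hsep : ∀ u ∈ S1, ∀ v ∈ S2, ¬ r u v := by
    intro u hu v hv
    obtain ⟨u, _, rfl⟩ := mem_image.1 hu
    obtain ⟨w, hw, rfl⟩ := mem_image.1 hv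
    exact (mem_filter.1 hw).2.1 _
  have cover : ∀ h : H, ∃ t ∈ S1 ∪ S2, r (.inr h) t := by
    intro h
    induction h using WellFoundedLT.induction with
    | ind h ih =>
      by_cases hm : mn r h
      · exact ⟨.inr h, mem_union_right _ (mem_image_of_mem _ (by simpa using hm)), hr.refl _⟩
      · simp only [mn, not_and_or, not_forall, not_not] at hm
        rcases hm with ⟨u, hu⟩ | ⟨h', hl, hu⟩
        · exact ⟨.inl u, mem_union_left _ (mem_image_of_mem _ (mem_univ _)), hr.symm hu⟩
        · obtain ⟨t, ht, h2⟩ := ih h' hl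
          exact ⟨t, ht, hr.trans (hr.symm hu) h2⟩
  have e1 : cnt r univ = cnt r (S1 ∪ S2) := by
    refine le_antisymm (cnt_le_of_map hr hr _ _ id ?_ fun _ _ _ _ h => h)
      (cnt_mono_set _ (subset_univ _))
    rintro (u | h) _
    · exact ⟨.inl u, mem_union_left _ (mem_image_of_mem _ (mem_univ _)), hr.refl _⟩
    · exact cover h
  have e2 : cnt r S1 = cnt (res r) univ := by
    refine le_antisymm ?_ (cnt_le_of_map (res_equiv hr) hr _ _ Sum.inl
      (fun u _ => ⟨.inl u, mem_image_of_mem _ (mem_univ _), hr.refl _⟩) fun _ _ _ _ h => h)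
    refine cnt_le_of_map hr (res_equiv hr) _ _ (Sum.elim id fun _ => Classical.arbitrary β)
      (fun u _ => ⟨_, mem_univ _, (res_equiv hr).refl _⟩) ?_
    intro u hu v hv h
    obtain ⟨u, _, rfl⟩ := mem_image.1 hu
    obtain ⟨v, _, rfl⟩ := mem_image.1 hv
    exact h
  have e3 : cnt r S2 = (univ.filter (mn r)).card := by
    refine le_antisymm ((cnt_le_card _ _).trans card_image_le) ?_
    refine card_le_cnt hr _ Sum.inr _ (fun i hi => ⟨_, mem_image_of_mem _ hi, hr.refl _⟩) ?_
    intro i hi j hj h
    rcases lt_trichotomy i j with k | k | k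
    · exact absurd h ((mem_filter.1 hj).2.2 i k)
    · exact k
    · exact absurd (hr.symm h) ((mem_filter.1 hi).2.2 j k)
  rw [e1, cnt_add_of_sep' hr _ S1 S2 (fun _ => mem_union) hsep, e2, e3]

variable {X : Type} [MeasurableSpace X] {μ : Measure X} [IsProbabilityMeasure μ]
variable {V E : Type} [Fintype V] [Fintype E]

/-- `G'` is `G` with hairs attached. -/
structure Hairy (G : Gr V E) (G' : Gr (V ⊕ H) (E ⊕ H)) (dir : H → Bool) : Prop where
  lab : ∀ e, G'.lab (.inl e) = G.lab e
  src : ∀ e, G'.src (.inl e) = .inl (G.src e)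
  tgt : ∀ e, G'.tgt (.inl e) = .inl (G.tgt e)
  out : ∀ h, G'.ends (!dir h) (.inr h) = .inr h
  par : ∀ h, (∃ u, G'.ends (dir h) (.inr h) = .inl u) ∨
    ∃ h' < h, G'.ends (dir h) (.inr h) = .inr h'

omit [Fintype V] [Fintype H] [LinearOrder H] in
lemma St.res {P : X → V ⊕ H → V ⊕ H → Prop} (h : St P) : St fun x => res (P x) :=
  ⟨measurable_pi_iff.2 fun _ => measurable_pi_iff.2 fun _ => h.m _ _,
    fun x => res_equiv (h.eqv x)⟩

lemma card_filter_eq_sum_ind {Z : H → Set X} (T : H → X → X) (x : X) (p : H → Prop)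
    (hp : ∀ h, p h ↔ T h x ∈ Z h) :
    ((univ.filter p).card : ℝ) = ∑ h, (Z h).indicator (1 : X → ℝ) (T h x) := by
  rw [card_filter]; push_cast
  refine sum_congr rfl fun h _ => ?_
  by_cases k : p h
  · simp [k, (hp h).1 k]
  · simp [k, mt (hp h).2 k]

lemma hair_energy [Nonempty V] [Nonempty E] {G : Gr V E} {G' : Gr (V ⊕ H) (E ⊕ H)}
    {dir : H → Bool} (hG : Hairy G G' dir) {σ : Bool → Equiv.Perm X} (hσ : MP μ σ)
    {P : X → V ⊕ H → V ⊕ H → Prop} (h : St P) :
    En μ G σ (fun x => res (P x)) ≤ En μ G' σ P := by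
  have hσm : ∀ s, Measurable (σ s) := fun s => (hσ.fwd s).measurable
  set Z : H → Set X := fun k => {y | mn (P y) k} with hZ
  have hZm : ∀ k, MeasurableSet (Z k) := fun k => measurableSet_setOf.2
    ((Measurable.of_discrete (f := fun r : V ⊕ H → V ⊕ H → Prop => mn r k)).comp h.meas)
  set T : H → X → X := fun k x => if dir k then σ (G'.lab (.inr k)) x else x with hT
  have hTm : ∀ k, MeasurePreserving (T k) μ μ := fun k => by
    simp only [hT]
    cases dir k
    · exact MeasurePreserving.id μ
    · exact hσ.fwd _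
  have h1 : ∀ y, (cnt (P y) univ : ℝ) = cnt (res (P y)) univ
      + ∑ k, (Z k).indicator (1 : X → ℝ) (id y) := by
    intro y
    rw [cnt_sum (h.eqv y), ← card_filter_eq_sum_ind (fun _ => id) y (mn (P y)) fun _ => Iff.rfl]
    push_cast; rfl
  have h2 : ∀ x, (cnt (eRel G σ (fun x => res (P x)) x) univ : ℝ)
      + ∑ k, (Z k).indicator (1 : X → ℝ) (T k x) ≤ cnt (eRel G' σ P x) univ := by
    intro x
    rw [cnt_sum (eRel_equiv G' σ h.eqv x),
      ← card_filter_eq_sum_ind T x (fun k => mn (P (T k x)) k) fun _ => Iff.rfl]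
    have e1 : res (eRel G' σ P x) = eRel G σ (fun x => res (P x)) x := by
      ext e e'; simp [res, eRel, hG.lab, hG.src, hG.tgt]
    rw [e1]
    have : (univ.filter fun k => mn (P (T k x)) k).card
        ≤ (univ.filter (mn (eRel G' σ P x))).card := by
      refine card_le_card fun k hk => ?_
      simp only [mem_filter, mem_univ, true_and] at hk ⊢
      have key : ∀ f, eRel G' σ P x f (.inr k) → P (T k x) (G'.ends (!dir k) f) (.inr k) := by
        rintro f ⟨a1, a2, a3⟩
        rw [← hG.out k]
        simp only [hT]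
        cases dir k
        · simpa [Gr.ends] using a2
        · simpa [Gr.ends, a1] using a3
      constructor
      · intro u hu
        have := key _ hu
        refine hk.1 (G.ends (!dir k) u) ?_
        cases hd : dir k <;> simpa [hd, Gr.ends, hG.src, hG.tgt] using this
      · intro k' hl hu
        have := key _ hu
        by_cases hd : dir k = dir k'
        · rw [hd, hG.out] at this
          exact hk.2 k' hl this
        · have hd' : (!dir k) = dir k' := by
            revert hd; cases dir k <;> cases dir k' <;> simp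
          rw [hd'] at this
          rcases hG.par k' with ⟨u, hu⟩ | ⟨k'', hl', hu⟩
          · exact hk.1 u (hu ▸ this)
          · exact hk.2 k'' (hl'.trans hl) (hu ▸ this)
    push_cast
    exact_mod_cast Nat.add_le_add_left this _
  have i1 := fun k => int_ind (hZm k) (MeasurePreserving.id μ)
  have i2 := fun k => int_ind (hZm k) (hTm k)
  have j1 := integrable_finsetSum univ fun k _ => (i1 k).1
  have j2 := integrable_finsetSum univ fun k _ => (i2 k).1
  have k2 := integral_mono (((h.res.e G hσm).int univ).add j2) ((h.e G' hσm).int univ) h2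
  simp only [Pi.add_apply] at k2
  rw [integral_add ((h.res.e G hσm).int univ) j2, integral_finsetSum _ fun k _ => (i2 k).1] at k2
  unfold En
  simp only [h1]
  rw [integral_add (h.res.int univ) j1, integral_finsetSum _ fun k _ => (i1 k).1]
  simp only [fun k => (i1 k).2, fun k => (i2 k).2] at k2 ⊢
  linarith

section init
variable {C : Type} [Fintype C]

def act0 (base : V) (fin : C → V) (D : C → Set X) (y : X) (u : V) : Prop :=
  u = base ∨ ∃ c, u = fin c ∧ y ∈ D c

def P0 (base : V) (fin : C → V) (D : C → Set X) (y : X) (u v : V) : Prop :=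
  u = v ∨ (act0 base fin D y u ∧ act0 base fin D y v)

omit [Fintype V] in
lemma P0_st (base : V) (fin : C → V) {D : C → Set X} (hD : ∀ c, MeasurableSet (D c)) :
    St (P0 base fin D) := by
  have hm : ∀ u, Measurable fun y => act0 base fin D y u := fun u =>
    measurable_const.or (Measurable.exists fun c =>
      measurable_const.and (measurableSet_setOf.1 (hD c)))
  refine ⟨measurable_pi_iff.2 fun u => measurable_pi_iff.2 fun v =>
    measurable_const.or ((hm u).and (hm v)), fun y => ⟨fun _ => Or.inl rfl, ?_, ?_⟩⟩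
  · rintro u v (h | h)
    · exact Or.inl h.symm
    · exact Or.inr h.symm
  · rintro u v w (rfl | h) (rfl | k)
    · exact Or.inl rfl
    · exact Or.inr k
    · exact Or.inr h
    · exact Or.inr ⟨h.1, k.2⟩

lemma P0_energy (G : Gr V E) {σ : Bool → Equiv.Perm X} (hσ : MP μ σ) (base : V) (fin : C → V)
    {D : C → Set X} (hD : ∀ c, MeasurableSet (D c)) :
    En μ G σ (P0 base fin D) ≤ Fintype.card E - Fintype.card V + ∑ c, μ.real (D c) := by
  have hσm : ∀ s, Measurable (σ s) := fun s => (hσ.fwd s).measurable
  have h := P0_st base fin hD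
  have h1 : ∀ y, (Fintype.card V : ℝ) ≤ cnt (P0 base fin D y) univ
      + ∑ c, (D c).indicator (1 : X → ℝ) (id y) := by
    intro y
    have e0 : ((univ.filter fun c => y ∈ D c).card : ℝ)
        = ∑ c, (D c).indicator (1 : X → ℝ) (id y) := by
      rw [card_filter]; push_cast
      refine sum_congr rfl fun c _ => ?_
      by_cases k : y ∈ D c <;> simp [k]
    rw [← e0]
    set S := (univ.filter fun c => y ∈ D c).image fin
    have e1 : (univ \ S).card ≤ cnt (P0 base fin D y) univ := by
      refine card_le_cnt (h.eqv y) _ id _ (fun i _ => ⟨i, mem_univ _, Or.inl rfl⟩) ?_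
      have key : ∀ i ∈ univ \ S, act0 base fin D y i → i = base := by
        rintro i hi (k | ⟨c, rfl, k⟩)
        · exact k
        · exact absurd (mem_image_of_mem fin (by simpa using k)) (mem_sdiff.1 hi).2
      rintro i hi j hj (k | ⟨k, k'⟩)
      · exact k
      · rw [key i hi k, key j hj k']
    have e2 : S.card ≤ (univ.filter fun c => y ∈ D c).card := card_image_le
    have e3 := card_sdiff_add_card_eq_card (subset_univ S)
    rw [card_univ] at e3
    exact_mod_cast (by omega)
  have h2 : ∀ x, (cnt (eRel G σ (P0 base fin D) x) univ : ℝ) ≤ Fintype.card E := fun x => by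
    exact_mod_cast cnt_le_card _ _
  have i1 := fun k => int_ind (μ := μ) (hD k) (MeasurePreserving.id μ)
  have j1 := integrable_finsetSum univ fun k _ => (i1 k).1
  have k1 := integral_mono (μ := μ) (integrable_const _) ((h.int univ).add j1) h1
  have k2 := integral_mono (μ := μ) ((h.e G hσm).int univ) (integrable_const _) h2
  simp only [Pi.add_apply] at k1
  rw [integral_add (h.int univ) j1, integral_finsetSum _ fun k _ => (i1 k).1] at k1
  simp only [fun k => (i1 k).2] at k1
  simp only [integral_const, probReal_univ, smul_eq_mul, one_mul] at k1 k2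
  unfold En
  linarith

end init

end Vale.Agent.P189
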