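import Vale.Agent.P189.Energy

/-! The number of defective edge classes is bounded by the excess energy. -/

namespace Vale.Agent.P189

open Finset Classical MeasureTheory

variable {X : Type} [MeasurableSpace X] {μ : Measure X} [IsProbabilityMeasure μ]
variable {V E : Type} [Fintype V] [Fintype E]

/-- half relation: same label, `f`-ends related. -/
def hRel (lab : E → Bool) (f : E → V) (r : V → V → Prop) (e e' : E) : Prop :=
  lab e = lab e' ∧ r (f e) (f e')

def hBad (lab : E → Bool) (f : E → V) (base : V) (r : V → V → Prop) (e : E) : Prop :=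
  ¬ r (f e) base ∧ ∃ e', r (f e) (f e') ∧ lab e ≠ lab e'

omit [Fintype V] [Fintype E] in
lemma hRel_equiv (lab : E → Bool) (f : E → V) {r : V → V → Prop} (hr : Equivalence r) :
    Equivalence (hRel lab f r) :=
  ⟨fun _ => ⟨rfl, hr.refl _⟩, fun h => ⟨h.1.symm, hr.symm h.2⟩,
    fun h k => ⟨h.1.trans k.1, hr.trans h.2 k.2⟩⟩

lemma half_bound (lab : E → Bool) (f : E → V) (base : V) {r : V → V → Prop} (hr : Equivalence r)
    (hs : Function.Surjective f) (hb : ∀ s, ∃ e, lab e = s ∧ f e = base) :
    cnt (hRel lab f r) (univ.filter (hBad lab f base r)) + 2 + 2 * cnt r univ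
      ≤ 2 * cnt (hRel lab f r) univ := by
  obtain ⟨e1, l1, f1⟩ := hb true
  obtain ⟨e0, l0, f0⟩ := hb false
  haveI : Nonempty E := ⟨e1⟩
  haveI : Nonempty V := ⟨base⟩
  have hA := hRel_equiv lab f hr
  have hA0 : Equivalence fun e e' => r (f e) (f e') :=
    ⟨fun _ => hr.refl _, fun h => hr.symm h, fun h k => hr.trans h k⟩
  have h1 := cnt_fiber hA hA0 fun _ _ h => h.2
  have h2 : cnt r univ ≤ cnt (fun e e' => r (f e) (f e')) univ :=
    cnt_le_of_map hr hA0 _ _ (Function.surjInv hs) (fun u _ => ⟨_, mem_univ _, hr.refl _⟩)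
      fun u _ v _ h => by simpa [Function.surjInv_eq] using h
  have h3 : cnt (hRel lab f r) {e1, e0} = 2 := by
    rw [cnt_add_of_sep' hA _ {e1} {e0} (by simp), cnt_singleton, cnt_singleton]
    intro u hu v hv h
    rw [mem_singleton] at hu hv; subst hu hv
    have := h.1; simp [l1, l0] at this
  have h4 := cnt_add_of_sep hA (univ.filter (hBad lab f base r)) {e1, e0} (by
    intro u hu v hv h
    refine (mem_filter.1 hu).2.1 ?_
    simp only [mem_insert, mem_singleton] at hv
    rcases hv with rfl | rfl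
    · exact f1 ▸ h.2
    · exact f0 ▸ h.2)
  have h5 : cnt (hRel lab f r) (univ.filter (hBad lab f base r) ∪ {e1, e0}) ≤ cnt (hRel lab f r)
      (univ.filter fun u => ∃ v, r (f u) (f v) ∧ ¬ hRel lab f r u v) := by
    refine cnt_mono_set _ fun u hu => ?_
    simp only [mem_union, mem_filter, mem_univ, true_and, mem_insert, mem_singleton] at hu ⊢
    rcases hu with ⟨_, v, k1, k2⟩ | rfl | rfl
    · exact ⟨v, k1, fun h => k2 h.1⟩
    · exact ⟨e0, by rw [f1, f0]; exact hr.refl _, fun h => by have := h.1; simp [l1, l0] at this⟩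
    · exact ⟨e1, by rw [f1, f0]; exact hr.refl _, fun h => by have := h.1; simp [l1, l0] at this⟩
  omega

structure Good (G : Gr V E) (base : V) (σ : Bool → Equiv.Perm X) (P : X → V → V → Prop)
    (x : X) (e : E) : Prop where
  fwd : ∀ e', G.lab e = G.lab e' → P x (G.src e) (G.src e') →
    P (σ (G.lab e) x) (G.tgt e) (G.tgt e')
  bwd : ∀ e', G.lab e = G.lab e' → P (σ (G.lab e) x) (G.tgt e) (G.tgt e') →
    P x (G.src e) (G.src e')
  out : ¬ hBad G.lab G.src base (P x) e
  inn : ¬ hBad G.lab G.tgt base (P (σ (G.lab e) x)) e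

noncomputable def Kd (G : Gr V E) (base : V) (σ : Bool → Equiv.Perm X) (P : X → V → V → Prop)
    (x : X) : ℕ := cnt (eRel G σ P x) (univ.filter fun e => ¬ Good G base σ P x e)

noncomputable def Psi (G : Gr V E) (base : V) (s : Bool) (r : V → V → Prop) : ℝ :=
  2 * (cnt (hRel G.lab G.tgt r) (univ.filter fun e => G.lab e = s) : ℝ)
    - cnt (hRel G.lab G.tgt r) (univ.filter fun e => G.lab e = s ∧ hBad G.lab G.tgt base r e)

structure Rose (G : Gr V E) (base : V) : Prop where
  ssrc : Function.Surjective G.src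
  stgt : Function.Surjective G.tgt
  bsrc : ∀ s, ∃ e, G.lab e = s ∧ G.src e = base
  btgt : ∀ s, ∃ e, G.lab e = s ∧ G.tgt e = base

variable {G : Gr V E} {base : V} {σ : Bool → Equiv.Perm X} {P : X → V → V → Prop}

lemma Psi_bound (hG : Rose G base) {r : V → V → Prop} (hr : Equivalence r) :
    2 + 2 * (cnt r univ : ℝ) ≤ Psi G base true r + Psi G base false r := by
  have h1 := half_bound G.lab G.tgt base hr hG.stgt hG.btgt
  have hA := hRel_equiv G.lab G.tgt hr
  have h2 := cnt_cover (hRel G.lab G.tgt r) univ (univ.filter fun e => G.lab e = true)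
    (univ.filter fun e => G.lab e = false) (by simp)
  have h3 := cnt_add_of_sep' hA (univ.filter (hBad G.lab G.tgt base r))
    (univ.filter fun e => G.lab e = true ∧ hBad G.lab G.tgt base r e)
    (univ.filter fun e => G.lab e = false ∧ hBad G.lab G.tgt base r e)
    (by intro a; cases h : G.lab a <;> simp [h]) (by
      intro u hu v hv h
      have := h.1
      rw [(mem_filter.1 hu).2.1, (mem_filter.1 hv).2.1] at this
      simp at this)
  unfold Psi
  have : 2 + 2 * cnt r univ
      + cnt (hRel G.lab G.tgt r) (univ.filter fun e => G.lab e = true ∧ hBad G.lab G.tgt base r e)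
      + cnt (hRel G.lab G.tgt r) (univ.filter fun e => G.lab e = false ∧ hBad G.lab G.tgt base r e)
      ≤ 2 * cnt (hRel G.lab G.tgt r) (univ.filter fun e => G.lab e = true)
      + 2 * cnt (hRel G.lab G.tgt r) (univ.filter fun e => G.lab e = false) := by omega
  have := (Nat.cast_le (α := ℝ)).2 this
  push_cast at this
  linarith

omit [MeasurableSpace X] in
lemma Kd_point (hG : Rose G base) (h : ∀ x, Equivalence (P x)) (x : X) :
    (Kd G base σ P x : ℝ) + 2 + 2 * cnt (P x) univ + Psi G base true (P (σ true x))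
      + Psi G base false (P (σ false x)) ≤ 4 * cnt (eRel G σ P x) univ := by
  obtain ⟨e1, _⟩ := hG.bsrc true
  haveI : Nonempty E := ⟨e1⟩
  have hM := eRel_equiv G σ h x
  have hA := hRel_equiv G.lab G.src (h x)
  set B : E → E → Prop := fun e e' => hRel G.lab G.tgt (P (σ (G.lab e) x)) e e' with hBd
  have hB : Equivalence B := by
    refine ⟨fun _ => ⟨rfl, (h _).refl _⟩, fun k => ⟨k.1.symm, k.1 ▸ (h _).symm k.2⟩,
      fun k k' => ⟨k.1.trans k'.1, (h _).trans k.2 (k.1 ▸ k'.2)⟩⟩
  have b1 := cnt_fiber hM hA fun _ _ k => ⟨k.1, k.2.1⟩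
  have b2 := cnt_fiber hM hB fun _ _ k => ⟨k.1, k.2.2⟩
  have b3 := half_bound G.lab G.src base (h x) hG.ssrc hG.bsrc
  have b4 := cnt_add_of_sep' hB univ (univ.filter fun e => G.lab e = true)
    (univ.filter fun e => G.lab e = false) (by simp) (by
      intro u hu v hv k
      have := k.1
      rw [(mem_filter.1 hu).2, (mem_filter.1 hv).2] at this
      simp at this)
  have b5 : ∀ s, cnt (hRel G.lab G.tgt (P (σ s x))) (univ.filter fun e => G.lab e = s)
      ≤ cnt B (univ.filter fun e => G.lab e = s) := fun s =>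
    cnt_le_of_map (hRel_equiv _ _ (h _)) hB _ _ id (fun u hu => ⟨u, hu, hB.refl _⟩)
      fun u hu v _ k => by
        have := (mem_filter.1 hu).2
        simpa [hBd, this] using k
  set S1 := univ.filter fun u => ∃ v, hRel G.lab G.src (P x) u v ∧ ¬ eRel G σ P x u v
  set S2 := univ.filter fun u => ∃ v, B u v ∧ ¬ eRel G σ P x u v
  set S3 := univ.filter fun u => u ∉ S1 ∧ hBad G.lab G.src base (P x) u
  set S4 := fun s => univ.filter fun u => u ∉ S2 ∧ G.lab u = s ∧
    hBad G.lab G.tgt base (P (σ s x)) u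
  have c3 : cnt (eRel G σ P x) S3
      ≤ cnt (hRel G.lab G.src (P x)) (univ.filter (hBad G.lab G.src base (P x))) := by
    refine cnt_le_of_map hM hA _ _ id
      (fun u hu => ⟨u, by simpa using (mem_filter.1 hu).2.2, hA.refl _⟩) fun u hu v _ k => ?_
    by_contra hn
    exact (mem_filter.1 hu).2.1 (mem_filter.2 ⟨mem_univ _, v, k, hn⟩)
  have c4 : ∀ s, cnt (eRel G σ P x) (S4 s) ≤ cnt (hRel G.lab G.tgt (P (σ s x)))
      (univ.filter fun e => G.lab e = s ∧ hBad G.lab G.tgt base (P (σ s x)) e) := by
    intro s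
    refine cnt_le_of_map hM (hRel_equiv _ _ (h _)) _ _ id
      (fun u hu => ⟨u, by simpa using (mem_filter.1 hu).2.2, (hRel_equiv _ _ (h _)).refl _⟩)
      fun u hu v _ k => ?_
    by_contra hn
    refine (mem_filter.1 hu).2.1 (mem_filter.2 ⟨mem_univ _, v, ?_, hn⟩)
    have := (mem_filter.1 hu).2.2.1
    simpa [hBd, this] using k
  have d1 := cnt_cover (eRel G σ P x) (univ.filter fun e => ¬ Good G base σ P x e) (S1 ∪ S2)
    (S3 ∪ (S4 true ∪ S4 false)) (by
      intro a ha
      by_contra hn
      simp only [mem_union, not_or] at hn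
      obtain ⟨⟨n1, n2⟩, n3, n4, n5⟩ := hn
      refine (mem_filter.1 ha).2 ⟨fun e' k k' => ?_, fun e' k k' => ?_, fun k => ?_, fun k => ?_⟩
      · by_contra q
        exact n1 (mem_filter.2 ⟨mem_univ _, e', ⟨k, k'⟩, fun z => q z.2.2⟩)
      · by_contra q
        exact n2 (mem_filter.2 ⟨mem_univ _, e', ⟨k, k'⟩, fun z => q z.2.1⟩)
      · exact n3 (mem_filter.2 ⟨mem_univ _, n1, k⟩)
      · cases hl : G.lab a
        · exact n5 (mem_filter.2 ⟨mem_univ _, n2, hl, hl ▸ k⟩)
        · exact n4 (mem_filter.2 ⟨mem_univ _, n2, hl, hl ▸ k⟩))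
  have d2 := cnt_union_le (eRel G σ P x) S1 S2
  have d3 := cnt_union_le (eRel G σ P x) S3 (S4 true ∪ S4 false)
  have d4 := cnt_union_le (eRel G σ P x) (S4 true) (S4 false)
  have := c4 true; have := c4 false; have := b5 true; have := b5 false
  unfold Psi Kd
  have fin : cnt (eRel G σ P x) (univ.filter fun e => ¬ Good G base σ P x e) + 2
      + 2 * cnt (P x) univ
      + 2 * cnt (hRel G.lab G.tgt (P (σ true x))) (univ.filter fun e => G.lab e = true)
      + 2 * cnt (hRel G.lab G.tgt (P (σ false x))) (univ.filter fun e => G.lab e = false)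
      ≤ 4 * cnt (eRel G σ P x) univ
      + cnt (hRel G.lab G.tgt (P (σ true x)))
        (univ.filter fun e => G.lab e = true ∧ hBad G.lab G.tgt base (P (σ true x)) e)
      + cnt (hRel G.lab G.tgt (P (σ false x)))
        (univ.filter fun e => G.lab e = false ∧ hBad G.lab G.tgt base (P (σ false x)) e) := by
    omega
  have := (Nat.cast_le (α := ℝ)).2 fin
  push_cast at this
  linarith

omit [IsProbabilityMeasure μ] in
lemma good_meas (hσ : MP μ σ) (h : St P) (e : E) : Measurable fun x => Good G base σ P x e := by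
  have hm := (hσ.fwd (G.lab e)).measurable
  have : (fun x => Good G base σ P x e) = fun x =>
      (∀ e', G.lab e = G.lab e' → P x (G.src e) (G.src e') →
        P (σ (G.lab e) x) (G.tgt e) (G.tgt e')) ∧
      (∀ e', G.lab e = G.lab e' → P (σ (G.lab e) x) (G.tgt e) (G.tgt e') →
        P x (G.src e) (G.src e')) ∧ ¬ hBad G.lab G.src base (P x) e ∧
        ¬ hBad G.lab G.tgt base (P (σ (G.lab e) x)) e := by
    ext x; exact ⟨fun k => ⟨k.1, k.2, k.3, k.4⟩, fun k => ⟨k.1, k.2.1, k.2.2.1, k.2.2.2⟩⟩
  rw [this]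
  refine (Measurable.forall fun e' => measurable_const.imp ((h.m _ _).imp ((h.m _ _).comp hm))).and
    ((Measurable.forall fun e' => measurable_const.imp (((h.m _ _).comp hm).imp (h.m _ _))).and
      (Measurable.and ?_ ?_))
  · exact ((Measurable.of_discrete (f := fun r => hBad G.lab G.src base r e)).comp h.meas).not
  · exact ((Measurable.of_discrete (f := fun r => hBad G.lab G.tgt base r e)).comp
      (h.meas.comp hm)).not

lemma Kd_int (hσ : MP μ σ) (h : St P) : Integrable (fun x => (Kd G base σ P x : ℝ)) μ := by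
  have hσm : ∀ s, Measurable (σ s) := fun s => (hσ.fwd s).measurable
  exact integrable_fin (Q := fun x => (eRel G σ P x, fun e => Good G base σ P x e))
    ((h.e G hσm).meas.prodMk (measurable_pi_iff.2 fun e => good_meas hσ h e))
    fun q => (cnt q.1 (univ.filter fun e => ¬ q.2 e) : ℝ)

lemma Kd_bound (hG : Rose G base) (hσ : MP μ σ) (h : St P) :
    ∫ x, (Kd G base σ P x : ℝ) ∂μ ≤ 4 * (En μ G σ P - 1) := by
  have hσm : ∀ s, Measurable (σ s) := fun s => (hσ.fwd s).measurable
  have i1 : ∀ s, Integrable (fun x => Psi G base s (P x)) μ := fun s => integrable_fin h.meas _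
  have i2 : ∀ s, Integrable (fun x => Psi G base s (P (σ s x))) μ := fun s =>
    integrable_fin (h.meas.comp (hσm s)) _
  have e2 : ∀ s, ∫ x, Psi G base s (P (σ s x)) ∂μ = ∫ x, Psi G base s (P x) ∂μ := fun s => by
    have hm : Measurable fun x => Psi G base s (P x) :=
      (Measurable.of_discrete (f := Psi G base s)).comp h.meas
    conv_rhs => rw [← (hσ.fwd s).map_eq]
    rw [integral_map (hσm s).aemeasurable hm.aestronglyMeasurable]
  have iv := (h.int (μ := μ) univ).const_mul 2
  have k1 := integral_mono (μ := μ) (((((Kd_int (base := base) (G := G) hσ h).add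
    (integrable_const 2)).add iv).add (i2 true)).add (i2 false))
    (((h.e G hσm).int univ).const_mul 4) (Kd_point hG h.eqv)
  have k2 := integral_mono (μ := μ) ((integrable_const 2).add iv) ((i1 true).add (i1 false))
    fun x => Psi_bound hG (h.eqv x)
  simp only [Pi.add_apply] at k1 k2
  rw [integral_add (integrable_const 2) iv, integral_add (i1 true) (i1 false),
    integral_const_mul] at k2
  rw [integral_add _ (i2 false), integral_add _ (i2 true), integral_add _ iv,
    integral_add (Kd_int hσ h) (integrable_const 2), e2, e2, integral_const_mul,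
    integral_const_mul] at k1
  · simp only [integral_const, probReal_univ, smul_eq_mul, one_mul] at k1 k2
    unfold En
    linarith
  · exact (Kd_int hσ h).add (integrable_const 2)
  · exact ((Kd_int hσ h).add (integrable_const 2)).add iv
  · exact (((Kd_int hσ h).add (integrable_const 2)).add iv).add (i2 true)

end Vale.Agent.P189
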