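import Vale.Agent.P189.Core
import Vale.Agent.P189.Group
import Vale.Agent.P189.Defs

/-! Infinite cost under a uniform spectral gap. -/

namespace Vale.Agent.P189

open FreeGroup MeasureTheory Filter Classical

variable {X : Type} [MeasurableSpace X] {μ : Measure X} [IsProbabilityMeasure μ]

section iv
variable {Γ : Type} [Group Γ] {ρ : Γ →* Equiv.Perm X} (hρ : ∀ g, MeasurePreserving (ρ g) μ μ)
  {B : Set X} (hB : MeasurableSet B)
include hρ hB

lemma iv_mul (g h : Γ) : iv μ ρ B (g * h) ≤ iv μ ρ B g + iv μ ρ B h := by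
  have m : MeasurableSet {x | x ∈ B ∧ ρ h⁻¹ x ∉ B} := hB.inter ((hρ _).measurable hB).compl
  have e : μ.real (ρ g⁻¹ ⁻¹' {x | x ∈ B ∧ ρ h⁻¹ x ∉ B}) = iv μ ρ B h := by
    rw [Measure.real, (hρ _).measure_preimage m.nullMeasurableSet]; rfl
  rw [← e]
  refine (measureReal_mono fun x hx => ?_).trans (measureReal_union_le _ _)
  by_cases q : ρ g⁻¹ x ∈ B
  · exact Or.inr ⟨q, by simpa [mul_inv_rev] using hx.2⟩
  · exact Or.inl ⟨hx.1, q⟩

lemma iv_inv (g : Γ) : iv μ ρ B g⁻¹ = iv μ ρ B g := by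
  have key : ∀ g : Γ, iv μ ρ B g + μ.real (B ∩ ρ g⁻¹ ⁻¹' B) = μ.real B := fun g => by
    rw [add_comm]
    exact measureReal_inter_add_sdiff ((hρ _).measurable hB)
  have m : MeasurableSet (B ∩ ρ g⁻¹⁻¹ ⁻¹' B) := hB.inter ((hρ _).measurable hB)
  have e : μ.real (B ∩ ρ g⁻¹ ⁻¹' B) = μ.real (B ∩ ρ g⁻¹⁻¹ ⁻¹' B) := by
    rw [Measure.real, Measure.real, ← (hρ g⁻¹).measure_preimage m.nullMeasurableSet]
    congr 2; ext x
    simp only [Set.mem_inter_iff, Set.mem_preimage, rho_cancel, and_comm]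
  have := key g
  have := key g⁻¹
  linarith

lemma iv_gap (a t : Γ) : iv μ ρ B a + iv μ ρ B t
    ≤ 5 * (iv μ ρ B (a * t) + iv μ ρ B (a * t * a * t ^ 2)) := by
  have h1 : iv μ ρ B t ≤ 2 * iv μ ρ B (a * t) + iv μ ρ B (a * t * a * t ^ 2) := by
    have e : t = (a * t)⁻¹ * ((a * t)⁻¹ * (a * t * a * t ^ 2)) := by group
    have k1 := iv_mul hρ hB (a * t)⁻¹ ((a * t)⁻¹ * (a * t * a * t ^ 2))
    have k2 := iv_mul hρ hB (a * t)⁻¹ (a * t * a * t ^ 2)
    rw [← e] at k1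
    rw [iv_inv hρ hB] at k1 k2
    linarith
  have h2 := iv_mul hρ hB (a * t) t⁻¹
  rw [mul_inv_cancel_right, iv_inv hρ hB] at h2
  have : 0 ≤ iv μ ρ B (a * t * a * t ^ 2) := measureReal_nonneg
  linarith

end iv

section chain
omit [MeasurableSpace X]
variable {Γ J : Type} [Group Γ] {ρ : Γ →* Equiv.Perm X} {lb : J → Γ} {dom : J → Set X}

lemma Chain.mono {S T : Set J} (h : S ⊆ T) {x g} (hc : Chain ρ lb dom S x g) :
    Chain ρ lb dom T x g := by
  induction hc with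
  | one => exact .one
  | fwd _ a b ih => exact .fwd ih (h a) b
  | bwd _ a b ih => exact .bwd ih (h a) b

lemma Chain.finite {S : Set J} {x g} (hc : Chain ρ lb dom S x g) :
    ∃ T : Finset J, ↑T ⊆ S ∧ Chain ρ lb dom T x g := by
  induction hc with
  | one => exact ⟨∅, by simp, .one⟩
  | @fwd g j _ a b ih =>
    obtain ⟨T, h1, h2⟩ := ih
    exact ⟨insert j T, by simp [Set.insert_subset_iff, a, h1],
      .fwd (h2.mono (by simp)) (by simp) b⟩
  | @bwd g j _ a b ih =>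
    obtain ⟨T, h1, h2⟩ := ih
    exact ⟨insert j T, by simp [Set.insert_subset_iff, a, h1],
      .bwd (h2.mono (by simp)) (by simp) b⟩

lemma Chain.map {Λ : Type} [Group Λ] {ρ' : Λ →* Equiv.Perm X} (ψ : Γ →* Λ) {S : Set J}
    (h : ∀ j ∈ S, ρ' (ψ (lb j)) = ρ (lb j)) {x g} (hc : Chain ρ lb dom S x g) :
    ρ' (ψ g) = ρ g ∧ Chain ρ' (fun j => ψ (lb j)) dom S x (ψ g) := by
  induction hc with
  | one => exact ⟨by simp, by simpa using Chain.one⟩
  | fwd _ a b ih =>
    refine ⟨by simp [ih.1, h _ a], ?_⟩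
    rw [MonoidHom.map_mul]
    exact .fwd ih.2 a (by simpa [ih.1] using b)
  | bwd _ a b ih =>
    refine ⟨by simp [ih.1, h _ a], ?_⟩
    rw [MonoidHom.map_mul, MonoidHom.map_inv]
    exact .bwd ih.2 a (by simpa [ih.1, h _ a] using b)

end chain

theorem level {ρ : Gam →* Equiv.Perm X} (hρ : ∀ g, MeasurePreserving (ρ g) μ μ) (i : ℕ)
    (gap : ∀ B, MeasurableSet B → μ.real B * (1 - μ.real B)
      ≤ 4 * (iv μ ρ B (aa (i + 1)) + iv μ ρ B (tt ^ pp i)))
    {D0 : Set X} (hD0 : MeasurableSet D0) (hD1 : μ.real D0 = 1 / 2)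
    {J : Type} [Countable J] (lb : J → Fr) (dom : J → Set X) (hd : ∀ j, MeasurableSet (dom j))
    (S S' : Set J) (hS : ∀ j ∈ S, lb j = of none ∨ lb j = of (some i) ∨ j ∈ S')
    (hs : ∀ T : Finset J, ↑T ⊆ S' → ∑ j ∈ T, μ.real (dom j) ≤ 1 / 5000) :
    μ {x | ∃ u, pj u = aa (i + 1) * tt ^ pp i ∧ Chain (ρ.comp pj) lb dom S x u}
      ≤ ENNReal.ofReal (1 / 4) := by
  set s : Finset (Finset J × Fr) → Set X := fun 𝒞 => {x | ∃ p ∈ 𝒞, ↑p.1 ⊆ S ∧
    pj p.2 = aa (i + 1) * tt ^ pp i ∧ Chain (ρ.comp pj) lb dom p.1 x p.2}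
  have hmono : Monotone s := fun _ _ h x ⟨p, a, b⟩ => ⟨p, h a, b⟩
  have sub : {x | ∃ u, pj u = aa (i + 1) * tt ^ pp i ∧ Chain (ρ.comp pj) lb dom S x u}
      ⊆ ⋃ 𝒞, s 𝒞 := by
    rintro x ⟨u, h1, h2⟩
    obtain ⟨T, h3, h4⟩ := h2.finite
    exact Set.mem_iUnion.2 ⟨{(T, u)}, (T, u), by simp, h3, h1, h4⟩
  refine (measure_mono sub).trans ?_
  rw [hmono.directed_le.measure_iUnion]
  refine iSup_le fun 𝒞 => ?_
  set T := (𝒞.biUnion Prod.fst).filter (· ∈ S)
  set u0 : Fr := of (some (i + 1)) * of none ^ pp i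
  have e0 : pj u0 = aa (i + 1) * tt ^ pp i := by simp [u0, aa, tt]
  have ev1 : ∀ᶠ n in hyperfilter ℕ, ∀ p ∈ 𝒞, pj p.2 = pj u0 → ev p.2 n = ev u0 n :=
    (eventually_all_finset 𝒞).2 fun p _ => by
      by_cases q : pj p.2 = pj u0
      · exact (pj_eq.1 q).mono fun n hn _ => hn
      · exact Eventually.of_forall fun n h => absurd h q
  have ev2 : ∀ᶠ n in atTop, ∀ j ∈ T, lv tt aa n (ev (lb j) n) = pj (lb j) :=
    (eventually_all_finset T).2 fun j _ => lv_ev _
  obtain ⟨n, h1, h2, h3⟩ := (ev1.and (top_le (ev2.and (eventually_ge_atTop (i + 1))))).exists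
  obtain ⟨d, rfl⟩ : ∃ d, n = i + 1 + d := ⟨n - (i + 1), by omega⟩
  obtain ⟨r1, r2, q1, q2⟩ := RR_runs d i
  set T' := T.filter (· ∈ S')
  set ψ : Fr →* F2 := (Pi.evalMonoidHom _ (i + 1 + d)).comp ev
  have la : lv tt aa (i + 1 + d) (grp (RR d (i + 1))) = aa (i + 1) := lv_RR rel_gam d (i + 1)
  have lt : lv tt aa (i + 1 + d) (of false) = tt := by simp [lv]
  have := core (μ := μ) (wd_zero _) (wd_last _) r1 r2 (ρ := ρ.comp (lv tt aa (i + 1 + d)))
    (fun g => hρ _) (fun B hB => by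
      have k := iv_gap hρ hB (aa (i + 1)) (tt ^ pp i)
      have k2 := gap B hB
      rw [q1, q2]
      simp only [iv, MonoidHom.comp_apply, MonoidHom.map_inv, MonoidHom.map_mul,
        MonoidHom.map_pow, la, lt, mul_comm 2 (pp i), pow_mul] at k k2 ⊢
      linarith) hD0 hD1 (C := T'.card) (fun c => ψ (lb (T'.equivFin.symm c)))
    (fun c => dom (T'.equivFin.symm c)) (fun c => hd _) (by
      rw [Equiv.sum_comp T'.equivFin.symm fun c => μ.real (dom c),
        Finset.sum_coe_sort T' fun c => μ.real (dom c)]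
      exact hs _ fun j hj => (Finset.mem_filter.1 hj).2)
    (lb := fun j => ψ (lb j)) (dom := dom) (S := T) (fun j hj => by
      rcases hS j (Finset.mem_filter.1 hj).2 with h | h | h
      · exact Or.inl (by simp [h, ψ, ev, gen])
      · refine Or.inr (Or.inl ?_)
        rw [pre_ln, h]
        simp [ψ, ev, gen, show i + 1 + d - i = d + 1 by omega]
      · exact Or.inr (Or.inr ⟨T'.equivFin ⟨j, Finset.mem_filter.2 ⟨hj, h⟩⟩, by simp, by simp⟩))
  refine (measure_mono ?_).trans this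
  rintro x ⟨p, a, b, c, e⟩
  have e' : Chain (ρ.comp pj) lb dom T x p.2 := e.mono fun j hj =>
    Finset.mem_filter.2 ⟨Finset.mem_biUnion.2 ⟨p, a, hj⟩, b hj⟩
  have := (e'.map (ρ' := ρ.comp (lv tt aa (i + 1 + d))) ψ fun j hj => by
    simp only [MonoidHom.comp_apply]; exact congrArg ρ (h2 j hj)).2
  have e2 : ψ p.2 = grp (RR d (i + 1)) * of false ^ pp i := by
    refine (h1 p a (c.trans e0.symm)).trans ?_
    simp [u0, ev, gen]
  rw [e2, ← q1] at this
  exact this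

theorem cost_top [StandardBorelSpace X] [MulAction Gam X] (hf : IsFreePmp Gam μ)
    (gap : ∀ i B, MeasurableSet B → μ.real B * (1 - μ.real B)
      ≤ 4 * (iv μ (MulAction.toPermHom Gam X) B (aa (i + 1))
        + iv μ (MulAction.toPermHom Gam X) B (tt ^ pp i)))
    {D0 : Set X} (hD0 : MeasurableSet D0) (hD1 : μ.real D0 = 1 / 2) : cost Gam μ = ⊤ := by
  refine iInf_eq_top.2 fun Φ => iInf_eq_top.2 fun hΦ => ?_
  by_contra hfin
  set ρ := MulAction.toPermHom Gam X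
  have hρ : ∀ g, MeasurePreserving (ρ g) μ μ := hf.1
  set Ak : ℕ × Gam → Set X := fun c => Φ.A c.1 ∩ {x | Φ.φ c.1 x = c.2⁻¹ • x}
  have mA : ∀ c, MeasurableSet (Ak c) := fun c => (Φ.measA _).inter
    (measurableSet_eq_fun (Φ.pres _).measurable (hf.1 _).measurable)
  have tot : ∑' c, μ (Ak c) ≠ ⊤ := by
    refine ne_top_of_le_ne_top hfin ?_
    rw [ENNReal.tsum_prod']
    refine ENNReal.tsum_le_tsum fun k => ?_
    rw [← measure_iUnion₀ ?_ fun g => (mA (k, g)).nullMeasurableSet]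
    · exact measure_mono (Set.iUnion_subset fun g => Set.inter_subset_left)
    · intro g g' hg
      refine measure_mono_null (fun x hx => ?_) (hf.2 (g' * g⁻¹) fun h => hg
        (mul_inv_eq_one.1 h).symm)
      have : g⁻¹ • x = g'⁻¹ • x := hx.1.2.symm.trans hx.2.2
      change (g' * g⁻¹) • x = x
      rw [mul_smul, this, smul_inv_smul]
  obtain ⟨F, hF⟩ := ((ENNReal.tendsto_tsum_compl_atTop_zero tot).eventually
    (gt_mem_nhds (show (0 : ENNReal) < ENNReal.ofReal (1 / 5000) by simp))).exists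
  obtain ⟨i, hi⟩ := ((eventually_all_finset F).2 fun c _ => lv_ev c.2.out).exists
  set σ := lv (of none : Fr) (fun j => of (some j)) i
  set lb : Bool ⊕ (ℕ × Gam) → Fr := Sum.elim (fun s => σ (of s)) fun c => c.2.out
  set dom : Bool ⊕ (ℕ × Gam) → Set X := Sum.elim (fun _ => Set.univ) Ak
  set S' : Set (Bool ⊕ (ℕ × Gam)) := Sum.inr '' (↑F)ᶜ
  set S : Set (Bool ⊕ (ℕ × Gam)) := Set.range Sum.inl ∪ S'
  have po : ∀ g : Gam, pj g.out = g := fun g => Quotient.out_eq g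
  have main := level hρ i (gap i) hD0 hD1 lb dom (by
      rintro (s | c)
      · exact MeasurableSet.univ
      · exact mA c) S S' (by
      rintro j (⟨s, rfl⟩ | h)
      · cases s <;> simp [lb, σ, lv]
      · exact Or.inr (Or.inr h)) (by
      intro T hT
      have e1 : ∑ j ∈ T, μ (dom j) ≤ ∑' c : {c // c ∉ F}, μ (Ak c) := by
        have e2 : ∑' c : {c // c ∉ F}, μ (Ak c) = ∑' j : S', μ (dom j) :=
          (tsum_image (fun j => μ (dom j)) Sum.inr_injective.injOn).symm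
        rw [e2, ← Finset.tsum_subtype' T fun j => μ (dom j)]
        exact ENNReal.tsum_mono_subtype (fun j => μ (dom j)) hT
      rw [← ENNReal.toReal_ofReal (show (0 : ℝ) ≤ 1 / 5000 by norm_num)]
      simp only [Measure.real]
      rw [← ENNReal.toReal_sum fun j _ => measure_ne_top _ _]
      exact ENNReal.toReal_mono ENNReal.ofReal_ne_top (e1.trans hF.le))
  have cH : ∀ x (f : F2) u, Chain (ρ.comp pj) lb dom S x u →
      Chain (ρ.comp pj) lb dom S x (u * σ f) := by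
    intro x f
    induction f using FreeGroup.induction_on with
    | C1 => intro u h; simpa using h
    | of s => exact fun u h => Chain.fwd (j := Sum.inl s) h (Or.inl ⟨s, rfl⟩) (Set.mem_univ _)
    | inv_of s _ =>
      intro u h
      rw [MonoidHom.map_inv]
      exact Chain.bwd (j := Sum.inl s) h (Or.inl ⟨s, rfl⟩) (Set.mem_univ _)
    | mul f g h1 h2 => intro u h; rw [MonoidHom.map_mul, ← mul_assoc]; exact h2 _ (h1 _ h)
  have reach : ∀ x y z, Relation.EqvGen (fun u v => ∃ i, u ∈ Φ.A i ∧ Φ.φ i u = v) y z →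
      ((∃ u, Chain (ρ.comp pj) lb dom S x u ∧ (pj u)⁻¹ • x = y) ↔
        ∃ u, Chain (ρ.comp pj) lb dom S x u ∧ (pj u)⁻¹ • x = z) := by
    intro x y z h
    induction h with
    | rel y z h =>
      obtain ⟨k, hy, rfl⟩ := h
      obtain ⟨g', hg⟩ := Φ.orb k y hy
      obtain ⟨g, rfl⟩ : ∃ g, g' = g⁻¹ := ⟨g'⁻¹, (inv_inv _).symm⟩
      have hA : y ∈ Ak (k, g) := ⟨hy, hg.symm⟩
      rw [← hg]
      by_cases q : (k, g) ∈ F
      · have e := hi _ q
        rw [lv_eq, po] at e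
        constructor
        · rintro ⟨u, a, rfl⟩
          exact ⟨_, cH x _ u a, by rw [MonoidHom.map_mul, e, mul_inv_rev, mul_smul]⟩
        · rintro ⟨u, a, b⟩
          refine ⟨_, cH x (ev g.out i)⁻¹ u a, ?_⟩
          rw [MonoidHom.map_inv, MonoidHom.map_mul, MonoidHom.map_inv, e, mul_inv_rev, mul_smul,
            b, inv_inv, smul_inv_smul]
      · constructor
        · rintro ⟨u, a, rfl⟩
          exact ⟨_, Chain.fwd (j := Sum.inr (k, g)) a (Or.inr ⟨_, q, rfl⟩) hA, by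
            simp only [lb, Sum.elim_inr]
            rw [MonoidHom.map_mul, po, mul_inv_rev, mul_smul]⟩
        · rintro ⟨u, a, b⟩
          have e : (pj (u * (lb (.inr (k, g)))⁻¹))⁻¹ • x = y := by
            simp only [lb, Sum.elim_inr]
            rw [MonoidHom.map_mul, MonoidHom.map_inv, po, mul_inv_rev, mul_smul,
              b, inv_inv, smul_inv_smul]
          rw [← e] at hA
          exact ⟨_, Chain.bwd (j := Sum.inr (k, g)) a (Or.inr ⟨_, q, rfl⟩) hA, e⟩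
    | refl => rfl
    | symm _ _ _ ih => exact ih.symm
    | trans _ _ _ _ _ h1 h2 => exact h1.trans h2
  have fr : ∀ᵐ x ∂μ, ∀ g : Gam, g ≠ 1 → g • x ≠ x := ae_all_iff.2 fun g => by
    by_cases q : g = 1
    · exact Eventually.of_forall fun _ h => absurd q h
    · exact (measure_eq_zero_iff_ae_notMem.1 (hf.2 g q)).mono fun x hx _ => hx
  have one : (1 : ENNReal) ≤ μ {x | ∃ u, pj u = aa (i + 1) * tt ^ pp i ∧
      Chain (ρ.comp pj) lb dom S x u} := by
    rw [← measure_univ (μ := μ)]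
    refine measure_mono_ae ((fr.and hΦ).mono fun x hx _ => ?_)
    obtain ⟨u, a, b⟩ := (reach x _ _ (hx.2 _ ⟨(aa (i + 1) * tt ^ pp i)⁻¹, rfl⟩)).1
      ⟨1, .one, by simp⟩
    refine ⟨u, ?_, a⟩
    by_contra q
    refine hx.1 ((aa (i + 1) * tt ^ pp i) * (pj u)⁻¹) (fun h => q (mul_inv_eq_one.1 h).symm) ?_
    rw [mul_smul, b, smul_inv_smul]
  have := one.trans main
  rw [ENNReal.one_le_ofReal] at this
  norm_num at this

end Vale.Agent.P189
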