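import Vale.Agent.P189.Thread
import Vale.Agent.P189.Hair

/-! Reading words in a fold-closed partition field. -/

namespace Vale.Agent.P189

open FreeGroup

abbrev F2 := FreeGroup Bool

variable {X V E : Type}

def sg (ρ : F2 →* Equiv.Perm X) (s : Bool) : Equiv.Perm X := ρ (of s)⁻¹

lemma mv_sg (ρ : F2 →* Equiv.Perm X) (d : Bool × Bool) :
    mv (sg ρ) d.1 d.2 = ρ (mk [d])⁻¹ := by
  obtain ⟨s, b⟩ := d
  cases b
  · have : (mk [(s, false)] : F2) = (of s)⁻¹ := by simp [of, inv_mk, invRev]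
    simp [mv, sg, this]
  · simp [mv, sg, of]

lemma rho_cancel {Γ : Type} [Group Γ] (ρ : Γ →* Equiv.Perm X) (g : Γ) (x : X) :
    ρ g⁻¹⁻¹ (ρ g⁻¹ x) = x := by
  rw [← Equiv.Perm.mul_apply, ← MonoidHom.map_mul, inv_mul_cancel, MonoidHom.map_one]; rfl

def Closed (G : Gr V E) (σ : Bool → Equiv.Perm X) (P : X → V → V → Prop) : Prop :=
  ∀ x e e' b, G.lab e = G.lab e' → P x (G.ends b e) (G.ends b e') →
    P (mv σ (G.lab e) b x) (G.ends (!b) e) (G.ends (!b) e')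

def Rd (G : Gr V E) (ρ : F2 →* Equiv.Perm X) (P : X → V → V → Prop) :
    List (Bool × Bool) → X → V → V → Prop
  | [], x, u, u' => P x u u'
  | d :: l, x, u, u' => ∃ e, G.lab e = d.1 ∧ P x u (G.ends d.2 e) ∧
      Rd G ρ P l (ρ (mk [d])⁻¹ x) (G.ends (!d.2) e) u'

def RdG (G : Gr V E) (ρ : F2 →* Equiv.Perm X) (P : X → V → V → Prop) (g : F2) (x : X)
    (u u' : V) : Prop := ∃ l, mk l = g ∧ Rd G ρ P l x u u'

variable {G : Gr V E} {ρ : F2 →* Equiv.Perm X} {P : X → V → V → Prop}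

lemma Rd.left (h : ∀ x, Equivalence (P x)) {l x u u1 u'} (h1 : P x u u1)
    (h2 : Rd G ρ P l x u1 u') : Rd G ρ P l x u u' := by
  cases l with
  | nil => exact (h x).trans h1 h2
  | cons d l =>
    obtain ⟨e, a, b, c⟩ := h2
    exact ⟨e, a, (h x).trans h1 b, c⟩

lemma mk_cons (d : Bool × Bool) (l : List (Bool × Bool)) :
    (mk (d :: l) : F2) = mk [d] * mk l := by simp [mul_mk]

lemma Rd.append (h : ∀ x, Equivalence (P x)) {l1 l2 x u u1 u2} (h1 : Rd G ρ P l1 x u u1)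
    (h2 : Rd G ρ P l2 (ρ (mk l1)⁻¹ x) u1 u2) : Rd G ρ P (l1 ++ l2) x u u2 := by
  induction l1 generalizing x u with
  | nil => exact Rd.left h h1 (by simpa [← one_eq_mk] using h2)
  | cons d l ih =>
    obtain ⟨e, a, b, c⟩ := h1
    refine ⟨e, a, b, ih c ?_⟩
    rw [mk_cons, mul_inv_rev, MonoidHom.map_mul] at h2
    exact h2

lemma Rd.step (h : ∀ x, Equivalence (P x)) (hc : Closed G (sg ρ) P) {l l'} (hs : Red.Step l l')
    {x u u'} (h1 : Rd G ρ P l x u u') : Rd G ρ P l' x u u' := by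
  obtain @⟨L1, L2, s, b⟩ := hs
  induction L1 generalizing x u with
  | nil =>
    obtain ⟨e, a1, a2, e', a3, a4, a5⟩ := h1
    have := hc _ e e' (!b) (a1.trans a3.symm) a4
    have e1 : mv (sg ρ) (G.lab e) (!b) = ρ (mk [(s, !b)])⁻¹ := by
      rw [a1]; exact mv_sg ρ (s, !b)
    have e2 : ρ (mk [(s, !b)])⁻¹ (ρ (mk [(s, b)])⁻¹ x) = x := by
      have : (mk [(s, !b)] : F2) = (mk [(s, b)])⁻¹ := by simp [inv_mk, invRev]
      rw [this, rho_cancel]
    rw [e1, e2] at this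
    simp only [Bool.not_not] at this a5
    rw [e2] at a5
    exact Rd.left h ((h x).trans a2 this) a5
  | cons d L ih =>
    obtain ⟨e, a, b, c⟩ := h1
    exact ⟨e, a, b, ih c⟩

lemma RdG.one (h : ∀ x, Equivalence (P x)) (hc : Closed G (sg ρ) P) {x u u'}
    (h1 : RdG G ρ P 1 x u u') : P x u u' := by
  obtain ⟨l, hl, h1⟩ := h1
  have hr : Red l [] := by
    have := reduce.red (L := l)
    rwa [← toWord_mk, hl, toWord_one] at this
  have : ∀ l', Red l l' → Rd G ρ P l' x u u' := by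
    intro l' hl'
    induction hl' with
    | refl => exact h1
    | tail _ hs ih => exact Rd.step h hc hs ih
  exact this [] hr

lemma RdG.refl {x u u'} (h1 : P x u u') : RdG G ρ P 1 x u u' := ⟨[], rfl, h1⟩

lemma RdG.mul (h : ∀ x, Equivalence (P x)) {g g' x u u1 u2} (h1 : RdG G ρ P g x u u1)
    (h2 : RdG G ρ P g' (ρ g⁻¹ x) u1 u2) : RdG G ρ P (g * g') x u u2 := by
  obtain ⟨l, rfl, h1⟩ := h1
  obtain ⟨l', rfl, h2⟩ := h2
  exact ⟨l ++ l', mul_mk.symm, Rd.append h h1 h2⟩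

lemma RdG.edge (h : ∀ x, Equivalence (P x)) (e : E) (b : Bool) (x : X) :
    RdG G ρ P (mk [(G.lab e, b)]) x (G.ends b e) (G.ends (!b) e) :=
  ⟨_, rfl, e, rfl, (h _).refl _, (h _).refl _⟩

lemma RdG.inv (h : ∀ x, Equivalence (P x)) {g x u u'} (h1 : RdG G ρ P g x u u') :
    RdG G ρ P g⁻¹ (ρ g⁻¹ x) u' u := by
  obtain ⟨l, rfl, h1⟩ := h1
  induction l generalizing x u with
  | nil =>
    have : (mk [] : F2) = 1 := rfl
    rw [this]
    exact RdG.refl (by simpa using (h x).symm h1)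
  | cons d l ih =>
    obtain ⟨e, a, b, c⟩ := h1
    have k1 := ih c
    have k2 := RdG.edge (G := G) (ρ := ρ) h e (!d.2) (ρ (mk [d])⁻¹ x)
    have e0 : (mk [(G.lab e, !d.2)] : F2) = (mk [d])⁻¹ := by simp [inv_mk, invRev, a]
    rw [e0, Bool.not_not] at k2
    have k3 := RdG.mul h k2 (RdG.refl (G := G) (u' := u) (by rw [rho_cancel]; exact (h x).symm b))
    rw [mul_one] at k3
    have := RdG.mul h k1 (u2 := u) (g' := (mk [d])⁻¹) (by rw [rho_cancel]; exact k3)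
    rw [mk_cons, mul_inv_rev, MonoidHom.map_mul]
    exact this

def pre (w : ℕ → Bool) : ℕ → F2
  | 0 => 1
  | k + 1 => pre w k * of (w k)

lemma Lc_sg (ρ : F2 →* Equiv.Perm X) (w : ℕ → Bool) (k : ℕ) :
    Lc (sg ρ) w k = ρ (pre w k)⁻¹ := by
  induction k with
  | zero => simp [Lc, pre]
  | succ k ih => simp [Lc, pre, ih, sg]

inductive Chain {Γ J : Type} [Group Γ] (ρ : Γ →* Equiv.Perm X) (lb : J → Γ) (dom : J → Set X)
    (S : Set J) (x : X) : Γ → Prop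
  | one : Chain ρ lb dom S x 1
  | fwd {g j} : Chain ρ lb dom S x g → j ∈ S → ρ g⁻¹ x ∈ dom j → Chain ρ lb dom S x (g * lb j)
  | bwd {g j} : Chain ρ lb dom S x g → j ∈ S → ρ (g * (lb j)⁻¹)⁻¹ x ∈ dom j →
      Chain ρ lb dom S x (g * (lb j)⁻¹)

lemma Chain.read (h : ∀ x, Equivalence (P x)) {J : Type} {lb : J → F2} {dom : J → Set X}
    {S : Set J} (b : V) (hS : ∀ j ∈ S, ∀ y ∈ dom j, RdG G ρ P (lb j) y b b) {x g}
    (hc : Chain ρ lb dom S x g) : RdG G ρ P g x b b := by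
  induction hc with
  | one => exact RdG.refl ((h x).refl _)
  | fwd _ hj hy ih => exact RdG.mul h ih (hS _ hj _ hy)
  | bwd _ hj hy ih =>
    refine RdG.mul h ih ?_
    have := RdG.inv h (hS _ hj _ hy)
    simpa [mul_inv_rev] using this

end Vale.Agent.P189
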