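import Vale.Agent.P189.Local

/-! Threads: small energy makes the touched set almost invariant. -/

namespace Vale.Agent.P189

open Finset Classical MeasureTheory

variable {X : Type} [MeasurableSpace X] {μ : Measure X} [IsProbabilityMeasure μ]
variable {V E : Type} [Fintype V] [Fintype E]

structure Cyc (G : Gr V E) (base : V) (N : ℕ) (w : ℕ → Bool) (v : ℕ → V) (e : ℕ → E)
    (loop : E) : Prop where
  v0 : v 0 = base
  vN : v N = base
  inj : ∀ i < N, ∀ j < N, v i = v j → i = j
  edges : ∀ f, f = loop ∨ ∃ i < N, f = e i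
  verts : ∀ u, ∃ i < N, u = v i
  src : ∀ i < N, G.src (e i) = v i
  tgt : ∀ i < N, G.tgt (e i) = v (i + 1)
  lab : ∀ i < N, G.lab (e i) = w i
  llab : G.lab loop = false
  lsrc : G.src loop = base
  ltgt : G.tgt loop = base
  w0 : w 0 = true
  wN : w (N - 1) = true
  pos : 0 < N

def Lc (σ : Bool → Equiv.Perm X) (w : ℕ → Bool) : ℕ → Equiv.Perm X
  | 0 => 1
  | k + 1 => σ (w k) * Lc σ w k

variable {G : Gr V E} {base : V} {N : ℕ} {w : ℕ → Bool} {v : ℕ → V} {e : ℕ → E} {loop : E}
  {σ : Bool → Equiv.Perm X} {P : X → V → V → Prop}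

omit [Fintype V] [Fintype E] in
lemma Cyc.rose (h : Cyc G base N w v e loop) : Rose G base := by
  have hN : N - 1 + 1 = N := Nat.sub_add_cancel h.pos
  have hl : N - 1 < N := by have := h.pos; omega
  refine ⟨fun u => ?_, fun u => ?_, fun s => ?_, fun s => ?_⟩
  · obtain ⟨i, hi, rfl⟩ := h.verts u
    exact ⟨e i, h.src i hi⟩
  · obtain ⟨i, hi, rfl⟩ := h.verts u
    cases i with
    | zero => exact ⟨loop, by rw [h.ltgt, h.v0]⟩
    | succ i => exact ⟨e i, h.tgt i (by omega)⟩
  · cases s
    · exact ⟨loop, h.llab, h.lsrc⟩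
    · exact ⟨e 0, by rw [h.lab 0 h.pos, h.w0], by rw [h.src 0 h.pos, h.v0]⟩
  · cases s
    · exact ⟨loop, h.llab, h.ltgt⟩
    · exact ⟨e (N - 1), by rw [h.lab _ hl, h.wN], by rw [h.tgt _ hl, hN, h.vN]⟩

omit [IsProbabilityMeasure μ] in
lemma MP.Lc (hσ : MP μ σ) (w : ℕ → Bool) (k : ℕ) : MeasurePreserving (Lc σ w k) μ μ ∧
    MeasurePreserving ((Lc σ w k)⁻¹ : Equiv.Perm X) μ μ := by
  induction k with
  | zero => exact ⟨MeasurePreserving.id μ, MeasurePreserving.id μ⟩
  | succ k ih =>
    refine ⟨(hσ.fwd _).comp ih.1, ?_⟩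
    have := ih.2.comp (hσ.bwd (w k))
    simpa [P189.Lc, mul_inv_rev] using this

lemma union_bound (hσ : MP μ σ) (h : St P) (I : Finset ℕ) (F : ℕ → Set X)
    (hF : ∀ m, MeasurableSet (F m))
    (hb : ∀ m ∈ I, ∀ x ∈ F m, ¬ Good G base σ P (Lc σ w m x) (e m))
    (hi : ∀ m ∈ I, ∀ m' ∈ I, ∀ x ∈ F m, ∀ x' ∈ F m', Lc σ w m x = Lc σ w m' x' →
      eRel G σ P (Lc σ w m x) (e m) (e m') → m = m') :
    μ.real (⋃ m ∈ I, F m) ≤ ∫ x, (Kd G base σ P x : ℝ) ∂μ := by
  have i1 := fun m => int_ind (μ := μ) (hF m) (hσ.Lc w m).2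
  refine (measureReal_biUnion_finset_le I F).trans ?_
  rw [← sum_congr rfl fun m _ => (i1 m).2, ← integral_finsetSum _ fun m _ => (i1 m).1]
  refine integral_mono (integrable_finsetSum _ fun m _ => (i1 m).1) (Kd_int hσ h) fun y => ?_
  have e0 : ∑ m ∈ I, (F m).indicator (1 : X → ℝ) (((Lc σ w m)⁻¹ : Equiv.Perm X) y)
      = ((I.filter fun m => ((Lc σ w m)⁻¹ : Equiv.Perm X) y ∈ F m).card : ℝ) := by
    rw [card_filter]; push_cast
    refine sum_congr rfl fun m _ => ?_
    rw [Set.indicator_apply]; rfl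
  simp only [e0, Nat.cast_le]
  refine card_le_cnt (eRel_equiv G σ h.eqv y) _ e _ (fun m hm => ⟨e m, ?_,
    (eRel_equiv G σ h.eqv y).refl _⟩) fun m hm m' hm' k => ?_
  · have := hb m (mem_filter.1 hm).1 _ (mem_filter.1 hm).2
    simpa using this
  · refine hi m (mem_filter.1 hm).1 m' (mem_filter.1 hm').1 _ (mem_filter.1 hm).2 _
      (mem_filter.1 hm').2 (by simp) (by simpa using k)

def Sing (σ : Bool → Equiv.Perm X) (w : ℕ → Bool) (v : ℕ → V) (P : X → V → V → Prop) (k : ℕ)
    (x : X) : Prop := ∀ u, P (Lc σ w k x) (v k) u → u = v k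

omit [IsProbabilityMeasure μ] in
lemma sing_meas (hσ : MP μ σ) (h : St P) (k : ℕ) : Measurable (Sing σ w v P k) :=
  Measurable.forall fun _ => ((h.m _ _).comp (hσ.Lc w k).1.measurable).imp measurable_const

section point
omit [MeasurableSpace X] [Fintype V] [Fintype E]

lemma Cyc.star (hC : Cyc G base N w v e loop) {m : ℕ} (hm : m + 1 < N) {x : X}
    (hg : Good G base σ P (Lc σ w m x) (e m)) (hs : Sing σ w v P (m + 1) x) (f : E)
    (hl : w m = G.lab f) (hf : P (Lc σ w m x) (v m) (G.src f)) : G.src f = v m := by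
  have hm' : m < N := by omega
  have k := hg.fwd f (by rw [hC.lab m hm', hl]) (by rwa [hC.src m hm'])
  rw [hC.lab m hm', hC.tgt m hm'] at k
  have k2 := hs _ k
  have nb : base ≠ v (m + 1) := fun q => by
    have := hC.inj 0 hC.pos (m + 1) hm (hC.v0.trans q); omega
  rcases hC.edges f with rfl | ⟨i, hi, rfl⟩
  · exact absurd (hC.ltgt ▸ k2) nb
  · rw [hC.tgt i hi] at k2
    by_cases q : i + 1 = N
    · rw [q, hC.vN] at k2; exact absurd k2 nb
    · have := hC.inj (i + 1) (by omega) (m + 1) hm k2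
      rw [hC.src i hi]; congr 1; omega

lemma Cyc.sing_back (hC : Cyc G base N w v e loop) {m : ℕ} (h1 : 1 ≤ m) (hm : m + 1 < N) {x : X}
    (hg : Good G base σ P (Lc σ w m x) (e m)) (hs : Sing σ w v P (m + 1) x) :
    Sing σ w v P m x := by
  have hm' : m < N := by omega
  intro u hu
  have nb : ¬ P (Lc σ w m x) (v m) base := fun q => by
    obtain ⟨f, f1, f2⟩ := hC.rose.bsrc (w m)
    have := hC.star hm hg hs f f1.symm (f2 ▸ q)
    have := hC.inj 0 hC.pos m hm' (hC.v0.trans (f2 ▸ this)); omega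
  obtain ⟨f, rfl⟩ := hC.rose.ssrc u
  refine hC.star hm hg hs f ?_ hu
  by_contra q
  exact hg.out ⟨by rwa [hC.src m hm'], f, by rwa [hC.src m hm'], by rwa [hC.lab m hm']⟩

lemma Cyc.step_back (hC : Cyc G base N w v e loop) {m k : ℕ} (hm : m < N) (hk : k < N) {x : X}
    (hg : Good G base σ P (Lc σ w m x) (e m))
    (nb : ¬ P (Lc σ w (m + 1) x) (v (m + 1)) base)
    (hp : P (Lc σ w (m + 1) x) (v (m + 1)) (v k)) :
    1 ≤ k ∧ w (k - 1) = w m ∧ P (Lc σ w m x) (v m) (v (k - 1)) := by
  cases k with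
  | zero => exact absurd (hC.v0 ▸ hp) nb
  | succ k =>
    have hk' : k < N := by omega
    have hp' : P (σ (G.lab (e m)) (Lc σ w m x)) (G.tgt (e m)) (G.tgt (e k)) := by
      rw [hC.lab m hm, hC.tgt m hm, hC.tgt k hk']; exact hp
    have hl : G.lab (e m) = G.lab (e k) := by
      by_contra q
      exact hg.inn ⟨by rw [hC.lab m hm, hC.tgt m hm]; exact nb, e k, hp', q⟩
    have := hg.bwd _ hl hp'
    rw [hC.src m hm, hC.src k hk'] at this
    rw [hC.lab m hm, hC.lab k hk'] at hl
    exact ⟨by omega, hl.symm, this⟩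

/-- a run of `t` letters of unique length. -/
structure Run (N : ℕ) (w : ℕ → Bool) (n r : ℕ) : Prop where
  one : 1 ≤ n
  lt : n + r < N
  bef : w (n - 1) = true
  mid : ∀ i < r, w (n + i) = false
  aft : w (n + r) = true
  uniq : ∀ j, j + 1 + r < N → w j = true → (∀ i < r, w (j + 1 + i) = false) →
    w (j + 1 + r) = true → j + 1 = n

lemma Cyc.nb_back (hC : Cyc G base N w v e loop) {n r : ℕ} (hR : Run N w n r) {x : X}
    (nb : ¬ P (Lc σ w (n + r) x) (v (n + r)) base) (d : ℕ) (hd : d ≤ r)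
    (hg : ∀ m, n + r - d ≤ m → m < n + r → Good G base σ P (Lc σ w m x) (e m)) :
    ¬ P (Lc σ w (n + r - d) x) (v (n + r - d)) base := by
  induction d with
  | zero => exact nb
  | succ d ih =>
    intro q
    have hm : n + r - (d + 1) < N := by have := hR.lt; omega
    have hw : w (n + r - (d + 1)) = false := by
      have := hR.mid (r - (d + 1)) (by omega)
      rwa [show n + (r - (d + 1)) = n + r - (d + 1) by omega] at this
    have k := (hg _ le_rfl (by omega)).fwd loop (by rw [hC.lab _ hm, hw, hC.llab])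
      (by rwa [hC.src _ hm, hC.lsrc])
    rw [hC.lab _ hm, hC.tgt _ hm, hC.ltgt] at k
    refine ih (by omega) (fun m h1 h2 => hg m (by omega) h2) ?_
    rw [show n + r - d = n + r - (d + 1) + 1 by omega]
    exact k

lemma Cyc.run_sing (hC : Cyc G base N w v e loop) {n r : ℕ} (hR : Run N w n r) {x : X}
    (nb : ¬ P (Lc σ w (n + r) x) (v (n + r)) base)
    (hg : ∀ m, n - 1 ≤ m → m ≤ n + r → Good G base σ P (Lc σ w m x) (e m)) :
    Sing σ w v P (n + r) x := by
  intro u hu
  obtain ⟨k, hk, rfl⟩ := hC.verts u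
  have hlt := hR.lt
  have h1 := hR.one
  have wk : w k = true := by
    by_contra q
    refine (hg (n + r) (by omega) le_rfl).out ⟨by rwa [hC.src _ hlt], e k,
      by rwa [hC.src _ hlt, hC.src _ hk], ?_⟩
    rw [hC.lab _ hlt, hC.lab _ hk, hR.aft]; exact fun z => q z.symm
  have nb' := fun d hd => hC.nb_back hR nb d hd fun m a b => hg m (by omega) (by omega)
  have key : ∀ d ≤ r, d ≤ k ∧ (∀ i < d, w (k - 1 - i) = false) ∧
      P (Lc σ w (n + r - d) x) (v (n + r - d)) (v (k - d)) := by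
    intro d hd
    induction d with
    | zero => exact ⟨by omega, by omega, hu⟩
    | succ d ih =>
      obtain ⟨a1, a2, a3⟩ := ih (by omega)
      have e1 : n + r - d = n + r - (d + 1) + 1 := by omega
      have := nb' d (by omega)
      rw [e1] at this a3
      obtain ⟨b1, b2, b3⟩ := hC.step_back (by omega) (by omega)
        (hg _ (by omega) (by omega)) this a3
      refine ⟨by omega, fun i hi => ?_, b3⟩
      by_cases q : i = d
      · have := hR.mid (r - (d + 1)) (by omega)
        rw [show n + (r - (d + 1)) = n + r - (d + 1) by omega, ← b2] at this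
        rw [← this]; congr 1; omega
      · exact a2 i (by omega)
  obtain ⟨a1, a2, a3⟩ := key r le_rfl
  have e1 : n + r - r = n - 1 + 1 := by omega
  have := nb' r le_rfl
  rw [e1] at this a3
  obtain ⟨b1, b2, _⟩ := hC.step_back (by omega) (by omega) (hg _ le_rfl (by omega)) this a3
  have := hR.uniq (k - r - 1) (by omega) (b2.trans hR.bef) (fun i hi => by
    rw [← a2 (r - 1 - i) (by omega)]; congr 1; omega) (by rw [← wk]; congr 1; omega)
  congr 1; omega

lemma Cyc.run_inj (hC : Cyc G base N w v e loop) {n r : ℕ} (hR : Run N w n r) {x : X}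
    (nb : ¬ P (Lc σ w (n + r) x) (v (n + r)) base) {m m' : ℕ} (h1 : n ≤ m) (h2 : m < m')
    (h3 : m' < n + r) (hg : ∀ k, m < k → k < n + r → Good G base σ P (Lc σ w k x) (e k)) :
    ¬ eRel G σ P (Lc σ w m x) (e m) (e m') := by
  intro hr
  have hlt := hR.lt
  have wf : ∀ k, n ≤ k → k < n + r → w k = false := fun k a b => by
    have := hR.mid (k - n) (by omega)
    rwa [show n + (k - n) = k by omega] at this
  have key : ∀ i, m' + 1 + i ≤ n + r →
      P (Lc σ w (m + 1 + i) x) (v (m + 1 + i)) (v (m' + 1 + i)) := by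
    intro i
    induction i with
    | zero =>
      intro _
      have := hr.2.2
      rw [hC.lab m (by omega), hC.tgt m (by omega), hC.tgt m' (by omega)] at this
      exact this
    | succ i ih =>
      intro hi
      have := (hg (m + 1 + i) (by omega) (by omega)).fwd (e (m' + 1 + i))
        (by rw [hC.lab _ (by omega), hC.lab _ (by omega), wf _ (by omega) (by omega),
          wf _ (by omega) (by omega)])
        (by rw [hC.src _ (by omega), hC.src _ (by omega)]; exact ih (by omega))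
      rw [hC.lab _ (by omega), hC.tgt _ (by omega), hC.tgt _ (by omega)] at this
      exact this
  have k1 := key (n + r - (m' + 1)) (by omega)
  set k := m + 1 + (n + r - (m' + 1)) with hk
  rw [show m' + 1 + (n + r - (m' + 1)) = n + r by omega] at k1
  have k2 := hC.nb_back hR nb (n + r - k) (by omega) fun a b c => hg a (by omega) c
  rw [show n + r - (n + r - k) = k by omega] at k2
  refine (hg k (by omega) (by omega)).out ⟨by rwa [hC.src _ (by omega)], e (n + r),
    by rwa [hC.src _ (by omega), hC.src _ hlt], ?_⟩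
  rw [hC.lab _ (by omega), hC.lab _ hlt, hR.aft, wf k (by omega) (by omega)]
  simp

end point

def Tch (σ : Bool → Equiv.Perm X) (w : ℕ → Bool) (v : ℕ → V) (P : X → V → V → Prop) : Set X :=
  {x | ¬ Sing σ w v P 1 x}

omit [IsProbabilityMeasure μ] in
lemma tch_meas (hσ : MP μ σ) (h : St P) : MeasurableSet (Tch σ w v P) :=
  measurableSet_setOf.2 (sing_meas hσ h 1).not

lemma inv_run (hC : Cyc G base N w v e loop) {n r : ℕ} (hR : Run N w n r) (hσ : MP μ σ)
    (h : St P) : μ.real {x | x ∈ Tch σ w v P ∧ Lc σ w (n + r) x ∉ Tch σ w v P}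
      ≤ 5 * ∫ x, (Kd G base σ P x : ℝ) ∂μ := by
  have hlt := hR.lt
  have h1 := hR.one
  set κ := ∫ x, (Kd G base σ P x : ℝ) ∂μ
  have gm : ∀ m, Measurable fun x => Good G base σ P (Lc σ w m x) (e m) := fun m =>
    (good_meas hσ h (e m)).comp (hσ.Lc w m).1.measurable
  set F2 : ℕ → Set X := fun m =>
    {x | Sing σ w v P (m + 1) x ∧ ¬ Good G base σ P (Lc σ w m x) (e m)}
  have m2 : ∀ m, MeasurableSet (F2 m) := fun m =>
    measurableSet_setOf.2 ((sing_meas hσ h _).and (gm m).not)
  have b2 : μ.real (⋃ m ∈ range (N - 1), F2 m) ≤ κ := by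
    refine union_bound (e := e) hσ h _ F2 m2 (fun m _ x hx => hx.2) ?_
    intro m hm m' hm' x hx x' _ _ k
    rw [mem_range] at hm hm'
    have := k.2.2
    rw [hC.lab m (by omega), hC.tgt m (by omega), hC.tgt m' (by omega)] at this
    have := hC.inj _ (by omega) _ (by omega) (hx.1 _ this)
    omega
  set F1 : ℕ → Set X := fun m => {x | ¬ Good G base σ P (Lc σ w m x) (e m)}
  have b1 : ∀ m, μ.real (F1 m) ≤ κ := fun m => by
    have := union_bound (e := e) (base := base) (G := G) (w := w) hσ h {m} F1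
      (fun m => measurableSet_setOf.2 (gm m).not) (fun m _ x hx => hx)
      (by intro a ha b hb _ _ _ _ _ _; rw [mem_singleton] at ha hb; rw [ha, hb])
    simpa using this
  set F3 : ℕ → Set X := fun m => {x | ¬ P (Lc σ w (n + r) x) (v (n + r)) base ∧
    (∀ k, m < k → k < n + r → Good G base σ P (Lc σ w k x) (e k)) ∧
    ¬ Good G base σ P (Lc σ w m x) (e m)}
  have b3 : μ.real (⋃ m ∈ Ico n (n + r), F3 m) ≤ κ := by
    refine union_bound (e := e) hσ h _ F3 (fun m => measurableSet_setOf.2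
      (((h.m _ _).comp (hσ.Lc w _).1.measurable).not.and ((Measurable.forall fun k =>
        measurable_const.imp (measurable_const.imp (gm k))).and (gm m).not)))
      (fun m _ x hx => hx.2.2) ?_
    intro m hm m' hm' x hx x' hx' hxx k
    rw [mem_Ico] at hm hm'
    rcases lt_trichotomy m m' with q | q | q
    · exact absurd k (hC.run_inj hR hx.1 hm.1 q hm'.2 hx.2.1)
    · exact q
    · rw [hxx] at k
      exact absurd ((eRel_equiv G σ h.eqv _).symm k) (hC.run_inj hR hx'.1 hm'.1 q hm.2 hx'.2.1)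
  set U2 := ⋃ m ∈ range (N - 1), F2 m
  set U3 := ⋃ m ∈ Ico n (n + r), F3 m
  have mU2 : MeasurableSet U2 := Finset.measurableSet_biUnion _ fun m _ => m2 m
  have b4 : μ.real (Lc σ w (n + r) ⁻¹' U2) ≤ κ := by
    rw [Measure.real, (hσ.Lc w _).1.measure_preimage mU2.nullMeasurableSet]; exact b2
  have sub : {x | x ∈ Tch σ w v P ∧ Lc σ w (n + r) x ∉ Tch σ w v P}
      ⊆ U2 ∪ (F1 (n - 1) ∪ (F1 (n + r) ∪ (U3 ∪ Lc σ w (n + r) ⁻¹' U2))) := by
    rintro x ⟨hx, hx'⟩
    by_contra hn
    simp only [Set.mem_union, not_or] at hn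
    obtain ⟨n1, n2, n3, n4, n5⟩ := hn
    have g2 : ∀ y ∉ U2, ∀ m, m + 1 < N → Sing σ w v P (m + 1) y →
        Good G base σ P (Lc σ w m y) (e m) := fun y hy m hm hs => by
      by_contra q
      exact hy (Set.mem_biUnion (mem_coe.2 (mem_range.2 (by omega : m < N - 1))) ⟨hs, q⟩)
    have s1 : ∀ k, k + 1 < N → Sing σ w v P (k + 1) x → Sing σ w v P 1 x := by
      intro k
      induction k with
      | zero => exact fun _ hs => hs
      | succ k ih =>
        exact fun hk hs => ih (by omega) (hC.sing_back (by omega) hk (g2 x n1 _ hk hs) hs)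
    have hb : P (Lc σ w (n + r) x) (v (n + r)) base := by
      by_contra nb
      have g3 : ∀ d m, n + r - d ≤ m → n ≤ m → m < n + r →
          Good G base σ P (Lc σ w m x) (e m) := by
        intro d
        induction d with
        | zero => intro m a b c; omega
        | succ d ih =>
          intro m a b c
          by_contra q
          exact n4 (Set.mem_biUnion (mem_coe.2 (mem_Ico.2 ⟨b, c⟩))
            ⟨nb, fun k k1 k2 => ih k (by omega) (by omega) k2, q⟩)
      have := hC.run_sing hR nb fun m a b => by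
        by_cases q : m = n - 1
        · rw [q]; exact not_not.1 n2
        by_cases q' : m = n + r
        · rw [q']; exact not_not.1 n3
        exact g3 r m (by omega) (by omega) (by omega)
      rw [show n + r = n + r - 1 + 1 by omega] at this
      exact hx (s1 _ (by omega) this)
    have hs : Sing σ w v P (0 + 1) (Lc σ w (n + r) x) := not_not.1 hx'
    have := hC.star (m := 0) (by omega) (g2 _ n5 0 (by omega) hs) hs (e (n + r))
      (by rw [hC.lab _ hlt, hR.aft, hC.w0])
      (by rw [hC.src _ hlt, hC.v0]; exact (h.eqv _).symm hb)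
    rw [hC.src _ hlt] at this
    have := hC.inj _ hlt _ hC.pos this
    omega
  have := measureReal_mono (μ := μ) sub
  have u1 := measureReal_union_le (μ := μ) U2
    (F1 (n - 1) ∪ (F1 (n + r) ∪ (U3 ∪ Lc σ w (n + r) ⁻¹' U2)))
  have u2 := measureReal_union_le (μ := μ) (F1 (n - 1)) (F1 (n + r) ∪ (U3 ∪ Lc σ w (n + r) ⁻¹' U2))
  have u3 := measureReal_union_le (μ := μ) (F1 (n + r)) (U3 ∪ Lc σ w (n + r) ⁻¹' U2)
  have u4 := measureReal_union_le (μ := μ) U3 (Lc σ w (n + r) ⁻¹' U2)
  have := b1 (n - 1)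
  have := b1 (n + r)
  linarith

end Vale.Agent.P189
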