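import Vale.Agent.P189.Lower
import Vale.Agent.P189.Gap

/-! The two actions. -/

namespace Vale.Agent.P189

open MeasureTheory Filter Classical

lemma cost_le {Γ X : Type} [Group Γ] [MulAction Γ X] [MeasurableSpace X] {μ : Measure X}
    (hf : IsFreePmp Γ μ) (el : ℕ → Γ) (A : ℕ → Set X) (hA : ∀ i, MeasurableSet (A i))
    (h : ∀ (g : Γ) x, Relation.EqvGen (fun u v => ∃ i, u ∈ A i ∧ (el i)⁻¹ • u = v) x (g • x)) :
    cost Γ μ ≤ ∑' i, μ (A i) := by
  let Φ : Graphing Γ μ :=
    { A := A
      B := fun i => (fun x => el i • x) ⁻¹' A i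
      φ := fun i x => (el i)⁻¹ • x
      measA := hA
      measB := fun i => (hf.1 _).measurable (hA i)
      bij := fun i => ⟨fun x hx => by simpa using hx, (MulAction.injective _).injOn,
        fun y hy => ⟨el i • y, hy, by simp⟩⟩
      pres := fun i => by
        have := (hf.1 (el i)⁻¹).restrict_preimage ((hf.1 (el i)).measurable (hA i))
        rwa [← Set.preimage_comp, show (fun x : X => el i • x) ∘ (fun x => (el i)⁻¹ • x) = id by
          ext; simp, Set.preimage_id] at this
      orb := fun i x _ => ⟨_, rfl⟩ }
  exact iInf₂_le Φ (Eventually.of_forall fun x y ⟨g, hg⟩ => hg ▸ h g x)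

lemma haar_single (m : ℕ) [NeZero m] (r : ZMod m) : haarP (ZMod m) {r} = (m : ENNReal)⁻¹ := by
  have h1 : ∀ r : ZMod m, haarP (ZMod m) {r} = haarP (ZMod m) {0} := fun r => by
    rw [← measure_preimage_add (haarP (ZMod m)) r {r}]; congr 1; ext; simp
  have h2 := sum_measure_singleton (μ := haarP (ZMod m)) (s := Finset.univ)
  simp only [h1, Finset.sum_const, Finset.card_univ, ZMod.card, nsmul_eq_mul, Finset.coe_univ,
    measure_univ] at h2
  rw [h1]; exact ENNReal.eq_inv_of_mul_eq_one_left (by rw [mul_comm]; exact h2)

variable {Γ : Type} [Group Γ] [Countable Γ]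

lemma null_fix [Infinite Γ] {g : Γ} (hg : g ≠ 1) : haarP (BX Γ) {x | Tg g x = x} = 0 := by
  let H : AddSubgroup (BX Γ) :=
    { carrier := {x | Tg g x = x}
      zero_mem' := rfl
      add_mem' := fun {a b} ha hb => funext fun γ => by
        have h1 := congrFun ha γ
        have h2 := congrFun hb γ
        simp only [Tg] at h1 h2
        simp [Tg, h1, h2]
      neg_mem' := fun {a} ha => funext fun γ => by
        have h1 := congrFun ha γ
        simp only [Tg] at h1
        simp [Tg, h1] }
  have hm : MeasurableSet (H : Set (BX Γ)) := measurableSet_eq_fun (Tg_mp g).measurable measurable_id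
  have hinf : Infinite (BX Γ ⧸ H) := by
    rw [← not_finite_iff_infinite]
    intro hfin
    obtain ⟨q, hq⟩ := Finite.exists_infinite_fiber
      fun γ : Γ => (QuotientAddGroup.mk (Pi.single γ 1) : BX Γ ⧸ H)
    have hq' := Set.infinite_coe_iff.1 hq
    obtain ⟨a, ha⟩ := hq'.nonempty
    obtain ⟨b, hb, hn⟩ := hq'.exists_notMem_finset {a, g * a}
    simp only [Finset.mem_insert, Finset.mem_singleton, not_or] at hn
    have := congrFun (QuotientAddGroup.eq.1 ((Set.mem_singleton_iff.1 ha).trans
      (Set.mem_singleton_iff.1 hb).symm)) a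
    have n1 : g * a ≠ a := by simpa using hg
    simp [Tg, n1, Ne.symm hn.1, Ne.symm hn.2] at this
  let f := Infinite.natEmbedding (BX Γ ⧸ H)
  let S : ℕ → Set (BX Γ) := fun k => (fun x => -(f k).out + x) ⁻¹' H
  have hS : ∀ k x, x ∈ S k → (QuotientAddGroup.mk x : BX Γ ⧸ H) = f k := fun k x hx =>
    ((QuotientAddGroup.out_eq' _).symm.trans (QuotientAddGroup.eq.2 hx)).symm
  have := measure_iUnion (μ := haarP (BX Γ)) (f := S) (fun k l hkl => Set.disjoint_left.2
    fun x a b => hkl (f.injective ((hS k x a).symm.trans (hS l x b))))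
    fun k => measurable_const_add _ hm
  simp only [S, measure_preimage_add] at this
  by_contra h
  rw [ENNReal.tsum_const_eq_top_of_ne_zero (c := haarP (BX Γ) H) h] at this
  exact measure_ne_top _ _ this

@[reducible] def shiftAct (Γ : Type) [Group Γ] : MulAction Γ (BX Γ) where
  smul g x := Tg g⁻¹ x
  one_smul x := funext fun γ => congrArg x (by simp)
  mul_smul g h x := funext fun γ => congrArg x (by simp [mul_assoc])

lemma shift_free [Infinite Γ] : @IsFreePmp Γ _ _ (shiftAct Γ) _ (haarP (BX Γ)) :=
  ⟨fun g => Tg_mp g⁻¹, fun _ hg => null_fix (inv_ne_one.2 hg)⟩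

theorem shift_cost : @cost Gam _ _ (shiftAct Gam) _ (haarP (BX Gam)) = ⊤ := by
  letI := shiftAct Gam
  have mp : MeasurePreserving (fun x : BX Gam => x 1) (haarP (BX Gam)) (haarP (ZMod 2)) :=
    AddMonoidHom.measurePreserving (f := Pi.evalAddMonoidHom (fun _ : Gam => ZMod 2) 1)
      (continuous_apply _) (fun z => ⟨fun _ => z, rfl⟩) (by rw [measure_univ, measure_univ])
  refine cost_top shift_free (fun i B hB => ?_) (D0 := (fun x : BX Gam => x 1) ⁻¹' {0})
    (mp.measurable trivial) ?_
  · have := gap ZZ_disj (ZZ_pp i) hB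
    simp only [Fintype.sum_bool] at this
    have e : ∀ (g : Gam) x, MulAction.toPermHom Gam (BX Gam) g⁻¹ x = Tg g x := fun g x =>
      congrArg (Tg · x) (inv_inv g)
    simpa only [iv, e, if_true, Bool.false_eq_true, if_false] using this
  · rw [Measure.real, mp.measure_preimage (MeasurableSet.of_discrete).nullMeasurableSet,
      haar_single]
    simp

def kk (i : ℕ) : ℕ := pp i * 2 ^ i

abbrev YY := ∀ i, ZMod (3 * kk i + 1)

noncomputable def ht (i : ℕ) : Gam →* Multiplicative (ZMod (3 * kk i + 1)) :=
  (exists_height (kk i) (i + 1)).choose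

noncomputable def hh (g : Gam) : YY := fun i => (ht i g).toAdd

@[reducible] noncomputable def prodAct : MulAction Gam (BX Gam × YY) where
  smul g w := (Tg g⁻¹ w.1, -hh g + w.2)
  one_smul w := Prod.ext (funext fun γ => congrArg w.1 (by simp)) (funext fun i => by
    change -(ht i 1).toAdd + w.2 i = w.2 i
    simp)
  mul_smul g h w := Prod.ext (funext fun γ => congrArg w.1 (by simp [mul_assoc]))
    (funext fun i => by
      change -(ht i (g * h)).toAdd + w.2 i = -(ht i g).toAdd + (-(ht i h).toAdd + w.2 i)
      simp only [map_mul, toAdd_mul]; ring)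

lemma prod_free : @IsFreePmp Gam _ _ prodAct _ (haarP (BX Gam × YY)) := by
  refine ⟨fun g => ?_, fun g hg => ?_⟩
  · have h1 : MeasurePreserving (fun w : BX Gam × YY => (Tg g⁻¹ w.1, w.2)) (haarP _) (haarP _) :=
      AddMonoidHom.measurePreserving
        (f := { toFun := fun w : BX Gam × YY => (Tg g⁻¹ w.1, w.2), map_zero' := rfl,
                map_add' := fun _ _ => rfl })
        (((continuous_pi fun _ => continuous_apply _).comp continuous_fst).prodMk continuous_snd)
        (fun y => ⟨(Tg g y.1, y.2), Prod.ext
          (funext fun γ => congrArg y.1 (mul_inv_cancel_left g γ)) rfl⟩) rfl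
    have h2 := (measurePreserving_add_left (haarP (BX Gam × YY)) (0, -hh g)).comp h1
    convert h2 using 1
    ext1 w
    exact Prod.ext (zero_add _).symm rfl
  · have mp : MeasurePreserving Prod.fst (haarP (BX Gam × YY)) (haarP (BX Gam)) :=
      AddMonoidHom.measurePreserving (f := AddMonoidHom.fst (BX Gam) YY) continuous_fst
        Prod.fst_surjective (measure_univ.trans measure_univ.symm)
    exact measure_mono_null (fun w hw => congrArg Prod.fst hw)
      (mp.preimage_null (null_fix (inv_ne_one.2 hg)))

def el : ℕ → Gam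
  | 0 => tt
  | i + 1 => aa i

def AA : ℕ → Set (BX Gam × YY)
  | 0 => Set.univ
  | 1 => Set.univ
  | i + 2 => (fun w => w.2 i) ⁻¹' {y | y.val < 3 * pp i}

lemma AA_bound (i : ℕ) : MeasurableSet (AA (i + 2)) ∧
    haarP (BX Gam × YY) (AA (i + 2)) ≤ 2⁻¹ ^ i := by
  have mp : MeasurePreserving (fun w : BX Gam × YY => w.2 i) (haarP _) (haarP _) :=
    AddMonoidHom.measurePreserving
      (f := (Pi.evalAddMonoidHom (fun i => ZMod (3 * kk i + 1)) i).comp 
        (AddMonoidHom.snd (BX Gam) YY))
      ((continuous_apply i).comp continuous_snd)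
      (fun z => ⟨(0, Pi.single i z), by simp⟩) (measure_univ.trans measure_univ.symm)
  refine ⟨mp.measurable trivial, ?_⟩
  rw [AA, mp.measure_preimage (MeasurableSet.of_discrete).nullMeasurableSet]
  have sub : {y : ZMod (3 * kk i + 1) | y.val < 3 * pp i}
      ⊆ ⋃ n ∈ Finset.range (3 * pp i), {(n : ZMod (3 * kk i + 1))} := fun y hy =>
    Set.mem_biUnion (Finset.mem_coe.2 (Finset.mem_range.2 hy)) (by simp)
  refine (measure_mono sub).trans ((measure_biUnion_finset_le _ _).trans ?_)
  simp only [haar_single, Finset.sum_const, Finset.card_range, nsmul_eq_mul]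
  rw [← ENNReal.inv_pow, ← div_eq_mul_inv,
    ENNReal.div_le_iff (by simp) (ENNReal.natCast_ne_top _), mul_comm ((2 : ENNReal) ^ i)⁻¹,
    ← div_eq_mul_inv, ENNReal.le_div_iff_mul_le (by simp) (by simp)]
  have : 3 * pp i * 2 ^ i ≤ 3 * kk i + 1 := by unfold kk; rw [mul_assoc]; omega
  exact_mod_cast this

theorem prod_cost : @cost Gam _ _ prodAct _ (haarP (BX Gam × YY)) < ⊤ := by
  letI := prodAct
  refine (cost_le prod_free el AA (fun i => ?_) ?_).trans_lt ?_
  · match i with
    | 0 => exact MeasurableSet.univ
    | 1 => exact MeasurableSet.univ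
    | i + 2 => exact (AA_bound i).1
  · set R := Relation.EqvGen fun u v => ∃ i, u ∈ AA i ∧ (el i)⁻¹ • u = v
    have hR : Equivalence R := Relation.EqvGen.is_equivalence _
    let K : Subgroup Gam :=
      { carrier := {g | ∀ x, R x (g⁻¹ • x)}
        one_mem' := fun x => by simpa using hR.refl x
        mul_mem' := fun {a b} ha hb x => by
          rw [mul_inv_rev, mul_smul]; exact hR.trans (ha x) (hb _)
        inv_mem' := fun {a} ha x => by
          have := ha (a⁻¹⁻¹ • x)
          rw [smul_inv_smul] at this
          exact hR.symm this }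
    have ht' : tt ∈ K := fun x => .rel _ _ ⟨0, trivial, rfl⟩
    have ha : ∀ i, aa i ∈ K := by
      intro i
      induction i with
      | zero => exact fun x => .rel _ _ ⟨1, trivial, rfl⟩
      | succ i ih =>
        obtain ⟨c1, c2⟩ := (exists_height (kk i) (i + 1)).choose_spec
        have hm : ∀ (g : Gam) (x : BX Gam × YY), (g⁻¹ • x).2 i = (ht i g).toAdd + x.2 i :=
          fun g x => by
            change -(ht i g⁻¹).toAdd + x.2 i = _
            simp
        have key : ∀ n : ℕ, ∀ x : BX Gam × YY, x.2 i = n → R x ((aa (i + 1))⁻¹ • x) := by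
          intro n
          induction n using Nat.strong_induction_on with
          | _ n ihn =>
            intro z hz
            by_cases q : n < 3 * pp i
            · refine .rel _ _ ⟨i + 2, ?_, rfl⟩
              change (z.2 i).val < _
              rw [hz, ZMod.val_natCast]
              exact (Nat.mod_le _ _).trans_lt q
            · set b := aa (i + 1)
              set x := (b * tt ^ pp i * b * tt ^ (2 * pp i)) • z with hx
              have hp : 0 < pp i := by unfold pp; omega
              have hz' : z = (b * tt ^ pp i * b * tt ^ (2 * pp i))⁻¹ • x := by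
                rw [hx, inv_smul_smul]
              have hb : ht i b = 1 := c2
              have htt : ht i tt = Multiplicative.ofAdd 1 := c1
              have h0 : x.2 i = ((n - 3 * pp i : ℕ) : ZMod _) := by
                have := hm (b * tt ^ pp i * b * tt ^ (2 * pp i)) x
                rw [← hz', hz] at this
                simp only [map_mul, map_pow, hb, htt, toAdd_mul, toAdd_pow, toAdd_ofAdd,
                  toAdd_one, nsmul_eq_mul] at this
                rw [Nat.cast_sub (by omega)]
                push_cast at this ⊢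
                linear_combination -this
              have h1 : ((b * tt ^ pp i)⁻¹ • x).2 i = ((n - 2 * pp i : ℕ) : ZMod _) := by
                rw [hm, h0, Nat.cast_sub (by omega), Nat.cast_sub (by omega)]
                simp only [map_mul, map_pow, hb, htt, toAdd_mul, toAdd_pow, toAdd_ofAdd,
                  toAdd_one, nsmul_eq_mul]
                push_cast
                ring
              have r0 := ihn _ (by omega) x h0
              have r1 := ihn _ (by omega) _ h1
              have r2 := K.pow_mem ht' (pp i) (b⁻¹ • x)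
              have r3 := K.pow_mem ht' (2 * pp i) (b⁻¹ • (b * tt ^ pp i)⁻¹ • x)
              have r4 := ih x
              clear_value x
              rw [← mul_smul ((tt ^ pp i)⁻¹), ← mul_inv_rev] at r2
              have e' : (tt ^ (2 * pp i))⁻¹ • b⁻¹ • (b * tt ^ pp i)⁻¹ • x = z := by
                rw [hz', ← mul_smul, ← mul_smul]; congr 1; group
              rw [e'] at r3
              have e : (aa i)⁻¹ • x = b⁻¹ • z := by
                rw [hz', ← mul_smul, ← mul_inv_rev, rel_gam i]; simp only [mul_assoc, b]
              rw [e] at r4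
              exact hR.trans (hR.symm (hR.trans r0 (hR.trans r2 (hR.trans r1 r3)))) r4
        exact fun x => key (x.2 i).val x (by simp)
    have all : ∀ g, g ∈ K := fun g => by
      obtain ⟨u, rfl⟩ := pj_surj g
      induction u using FreeGroup.induction_on with
      | C1 => simp
      | of o =>
        cases o with
        | none => exact ht'
        | some i => exact ha i
      | inv_of o ih => rw [map_inv]; exact K.inv_mem ih
      | mul u v h1 h2 => rw [map_mul]; exact K.mul_mem h1 h2
    intro g x
    simpa using all g⁻¹ x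
  · rw [tsum_eq_zero_add' ENNReal.summable, tsum_eq_zero_add' ENNReal.summable]
    refine ENNReal.add_lt_top.2 ⟨measure_lt_top _ _, ENNReal.add_lt_top.2 ⟨measure_lt_top _ _, ?_⟩⟩
    refine (ENNReal.tsum_le_tsum fun i => (AA_bound i).2).trans_lt ?_
    rw [ENNReal.tsum_geometric]; simp

end Vale.Agent.P189
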