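import Vale.Agent.P189.Read

/-! Positive words given by their lists of run lengths. -/

namespace Vale.Agent.P189

open FreeGroup

def wd : List ℕ → ℕ → Bool
  | [], k => decide (k = 0)
  | r :: R, k => if k = 0 then true else if k ≤ r then false else wd R (k - r - 1)

def ln : List ℕ → ℕ
  | [] => 1
  | r :: R => r + 1 + ln R

def grp : List ℕ → F2
  | [] => of true
  | r :: R => of true * of false ^ r * grp R

lemma ln_pos (R : List ℕ) : 0 < ln R := by cases R <;> simp [ln]

lemma wd_zero (R : List ℕ) : wd R 0 = true := by cases R <;> simp [wd]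

lemma wd_shift (r : ℕ) (R : List ℕ) (k : ℕ) : wd (r :: R) (r + 1 + k) = wd R k := by
  simp only [wd]
  rw [if_neg (by omega), if_neg (by omega)]; congr 1; omega

lemma wd_run (r : ℕ) (R : List ℕ) {k : ℕ} (h1 : 1 ≤ k) (h2 : k ≤ r) : wd (r :: R) k = false := by
  simp only [wd]
  rw [if_neg (by omega), if_pos h2]

lemma wd_last (R : List ℕ) : wd R (ln R - 1) = true := by
  induction R with
  | nil => simp [wd, ln]
  | cons r R ih =>
    have := ln_pos R
    rw [show ln (r :: R) - 1 = r + 1 + (ln R - 1) by simp only [ln]; omega, wd_shift, ih]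

lemma ln_append (R1 R2 : List ℕ) (r : ℕ) : ln (R1 ++ r :: R2) = ln R1 + r + ln R2 := by
  induction R1 with
  | nil => simp [ln]; omega
  | cons a R ih => simp only [List.cons_append, ln] at ih ⊢; omega

lemma grp_append (R1 R2 : List ℕ) (r : ℕ) :
    grp (R1 ++ r :: R2) = grp R1 * of false ^ r * grp R2 := by
  induction R1 with
  | nil => simp [grp]
  | cons a R ih => simp only [List.cons_append, grp, mul_assoc] at ih ⊢; rw [ih]

lemma pre_run (r : ℕ) (R : List ℕ) (k : ℕ) (hk : k ≤ r) :
    pre (wd (r :: R)) (k + 1) = of true * of false ^ k := by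
  induction k with
  | zero => simp [pre, wd_zero]
  | succ k ih => rw [pre, ih (by omega), wd_run r R (by omega) hk, pow_succ, mul_assoc]

lemma pre_shift (r : ℕ) (R : List ℕ) (k : ℕ) :
    pre (wd (r :: R)) (r + 1 + k) = of true * of false ^ r * pre (wd R) k := by
  induction k with
  | zero => simp [pre_run r R r le_rfl, show pre (wd R) 0 = 1 from rfl]
  | succ k ih => rw [← add_assoc, pre, ih, wd_shift, pre, mul_assoc]

lemma pre_ln (R : List ℕ) : pre (wd R) (ln R) = grp R := by
  induction R with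
  | nil => simp [pre, ln, grp, wd]
  | cons r R ih => rw [ln, pre_shift, ih, grp]

lemma pre_append (R1 R2 : List ℕ) (r : ℕ) :
    pre (wd (R1 ++ r :: R2)) (ln R1 + r) = grp R1 * of false ^ r := by
  induction R1 with
  | nil => simpa [ln, grp, add_comm] using pre_run r R2 r le_rfl
  | cons a R ih =>
    rw [List.cons_append, ln, add_assoc, pre_shift, ih, grp]; simp [mul_assoc]

/-- a pattern `a t^r a` is a run of the list. -/
lemma pattern_cons {a r j : ℕ} {R : List ℕ} (h1 : wd (a :: R) j = true)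
    (h2 : ∀ i < r, wd (a :: R) (j + 1 + i) = false) (h3 : wd (a :: R) (j + 1 + r) = true) :
    (j = 0 ∧ r = a) ∨ ∃ j', j = a + 1 + j' ∧ wd R j' = true ∧
      (∀ i < r, wd R (j' + 1 + i) = false) ∧ wd R (j' + 1 + r) = true := by
  by_cases q : j = 0
  · subst q
    refine Or.inl ⟨rfl, ?_⟩
    rcases lt_trichotomy r a with k | k | k
    · rw [wd_run a R (by omega) (by omega)] at h3; simp at h3
    · exact k
    · have := h2 a k
      rw [show 0 + 1 + a = a + 1 + 0 by omega, wd_shift, wd_zero] at this; simp at this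
  · by_cases q' : j ≤ a
    · rw [wd_run a R (by omega) q'] at h1; simp at h1
    · obtain ⟨j', rfl⟩ : ∃ j', j = a + 1 + j' := ⟨j - a - 1, by omega⟩
      refine Or.inr ⟨j', rfl, by rwa [wd_shift] at h1, fun i hi => ?_, ?_⟩
      · have := h2 i hi
        rwa [add_assoc, add_assoc, wd_shift, ← add_assoc] at this
      · rwa [add_assoc, add_assoc, wd_shift, ← add_assoc] at h3

lemma no_pattern {r : ℕ} {R : List ℕ} (hr : r ∉ R) (j : ℕ) (h1 : wd R j = true)
    (h2 : ∀ i < r, wd R (j + 1 + i) = false) (h3 : wd R (j + 1 + r) = true) : False := by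
  induction R generalizing j with
  | nil => simp [wd] at h3
  | cons a R ih =>
    rcases pattern_cons h1 h2 h3 with ⟨_, h⟩ | ⟨j', _, a1, a2, a3⟩
    · exact hr (h ▸ List.mem_cons_self)
    · exact ih (fun h => hr (List.mem_cons_of_mem _ h)) j' a1 a2 a3

lemma run_append {r : ℕ} {R1 R2 : List ℕ} (h1 : r ∉ R1) (h2 : r ∉ R2) :
    Run (ln (R1 ++ r :: R2)) (wd (R1 ++ r :: R2)) (ln R1) r := by
  have key : wd (R1 ++ r :: R2) (ln R1 - 1) = true ∧
      (∀ i < r, wd (R1 ++ r :: R2) (ln R1 + i) = false) ∧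
      wd (R1 ++ r :: R2) (ln R1 + r) = true ∧
      ∀ j, wd (R1 ++ r :: R2) j = true → (∀ i < r, wd (R1 ++ r :: R2) (j + 1 + i) = false) →
        wd (R1 ++ r :: R2) (j + 1 + r) = true → j + 1 = ln R1 := by
    induction R1 with
    | nil =>
      refine ⟨wd_zero _, fun i hi => wd_run _ _ (by simp [ln]) (by simp only [ln]; omega), ?_,
        fun j a1 a2 a3 => ?_⟩
      · rw [show ln [] + r = r + 1 + 0 by simp [ln, add_comm]]
        exact (wd_shift _ _ _).trans (wd_zero _)
      · rcases pattern_cons a1 a2 a3 with ⟨h, _⟩ | ⟨j', _, b1, b2, b3⟩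
        · simp [h, ln]
        · exact (no_pattern h2 j' b1 b2 b3).elim
    | cons a R ih =>
      obtain ⟨i1, i2, i3, i4⟩ := ih fun h => h1 (List.mem_cons_of_mem _ h)
      have := ln_pos R
      simp only [List.cons_append, ln]
      refine ⟨?_, fun i hi => ?_, ?_, fun j a1 a2 a3 => ?_⟩
      · rw [show a + 1 + ln R - 1 = a + 1 + (ln R - 1) by omega, wd_shift, i1]
      · rw [add_assoc, wd_shift, i2 i hi]
      · rw [add_assoc, wd_shift, i3]
      · rcases pattern_cons a1 a2 a3 with ⟨_, h⟩ | ⟨j', rfl, b1, b2, b3⟩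
        · exact absurd (h ▸ List.mem_cons_self) h1
        · have := i4 j' b1 b2 b3; omega
  exact ⟨ln_pos _, by rw [ln_append]; have := ln_pos R2; omega, key.1, key.2.1, key.2.2.1,
    fun j _ => key.2.2.2 j⟩

def pp (i : ℕ) : ℕ := 2 * i + 1

def RR : ℕ → ℕ → List ℕ
  | 0, _ => []
  | d + 1, i => RR d (i + 1) ++ pp i :: (RR d (i + 1) ++ (2 * pp i) :: RR d (i + 1))

lemma mem_RR {d i r : ℕ} (h : r ∈ RR d i) :
    (r % 2 = 1 ∧ pp i ≤ r) ∨ (r % 2 = 0 ∧ 2 * pp i ≤ r) := by
  induction d generalizing i with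
  | zero => simp [RR] at h
  | succ d ih =>
    simp only [RR, List.mem_append, List.mem_cons] at h
    have ih' := @ih (i + 1)
    unfold pp at *
    rcases h with h | h | h | h | h
    · have := ih' h; omega
    · omega
    · have := ih' h; omega
    · omega
    · have := ih' h; omega

lemma RR_runs (d i : ℕ) :
    Run (ln (RR (d + 1) i)) (wd (RR (d + 1) i)) (ln (RR d (i + 1))) (pp i) ∧
    Run (ln (RR (d + 1) i)) (wd (RR (d + 1) i))
      (ln (RR d (i + 1) ++ pp i :: RR d (i + 1))) (2 * pp i) ∧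
    pre (wd (RR (d + 1) i)) (ln (RR d (i + 1)) + pp i) = grp (RR d (i + 1)) * of false ^ pp i ∧
    pre (wd (RR (d + 1) i)) (ln (RR d (i + 1) ++ pp i :: RR d (i + 1)) + 2 * pp i)
      = grp (RR d (i + 1)) * of false ^ pp i * grp (RR d (i + 1)) * of false ^ (2 * pp i) := by
  have n1 : pp i ∉ RR d (i + 1) := fun h => by have := mem_RR h; unfold pp at *; omega
  have n2 : 2 * pp i ∉ RR d (i + 1) := fun h => by have := mem_RR h; unfold pp at *; omega
  have n3 : pp i ≠ 2 * pp i := by unfold pp; omega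
  have e : RR (d + 1) i
      = (RR d (i + 1) ++ pp i :: RR d (i + 1)) ++ (2 * pp i) :: RR d (i + 1) := by simp [RR]
  refine ⟨run_append n1 (by simp [n1, n3]), ?_, pre_append _ _ _, ?_⟩
  · rw [e]; exact run_append (by simp [n2, n3.symm]) n2
  · rw [e, pre_append, grp_append]

lemma sw_pos {s : Bool} {g : F2} (h : g ∉ startsWith (s, false)) :
    of s * g ∈ startsWith (s, true) := startsWith_mk_mul (w := (s, true)) g h

lemma sw_not {d d' : Bool × Bool} {g : F2} (h : g ∈ startsWith d) (hd : d ≠ d') :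
    g ∉ startsWith d' := Set.disjoint_left.1 (startsWith.disjoint_iff_ne.2 hd) h

lemma tpow_sw {g : F2} (h : g ∉ startsWith (false, false)) (r : ℕ) :
    of false ^ (r + 1) * g ∈ startsWith (false, true) := by
  induction r with
  | zero => simpa using sw_pos h
  | succ r ih => rw [pow_succ', mul_assoc]; exact sw_pos (sw_not ih (by simp))

lemma grp_sw (R : List ℕ) {g : F2} (h : g ∉ startsWith (true, false)) :
    grp R * g ∈ startsWith (true, true) := by
  induction R with
  | nil => exact sw_pos h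
  | cons r R ih =>
    rw [grp, mul_assoc, mul_assoc]
    refine sw_pos ?_
    cases r with
    | zero => simpa using sw_not ih (by simp)
    | succ r => exact sw_not (tpow_sw (sw_not ih (by simp)) r) (by simp)

end Vale.Agent.P189
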